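import Crest.Agent.R72.DiscZ
import Crest.Prelude.Def_TriangularHilbert

/-! # R72 task Cont: from the lattice to the plane (measurable inputs, additive form) -/

set_option autoImplicit false

namespace Crest.Agent.R72

open Matrix Finset

open MeasureTheory Crest.AnalysisR
open scoped ENNReal

namespace Cont

/-- unfolding the plane over the lattice `δ ℤ²` -/
theorem unfold2 {δ : ℝ} (hδ : 0 < δ) {φ : ℝ × ℝ → ℝ≥0∞} (hφ : Measurable φ) :
    ∫⁻ z, φ z = ∫⁻ z in Set.Ico (0 : ℝ) δ ×ˢ Set.Ico (0 : ℝ) δ,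
      ∑' p : ℤ × ℤ, φ (z.1 + δ * p.1, z.2 + δ * p.2) := by
  let fl : ℝ × ℝ → ℤ × ℤ := fun z => (⌊z.1 / δ⌋, ⌊z.2 / δ⌋)
  have hfl : Measurable fl := by
    simp only [fl]
    exact (Int.measurable_floor.comp (measurable_fst.div_const δ)).prodMk
      (Int.measurable_floor.comp (measurable_snd.div_const δ))
  have hU : (Set.univ : Set (ℝ × ℝ)) = ⋃ p : ℤ × ℤ, fl ⁻¹' {p} := by
    ext z; simp
  have h1 : ∀ (x : ℝ) (i : ℤ), ⌊(x + δ * i) / δ⌋ = i ↔ x ∈ Set.Ico (0 : ℝ) δ := by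
    intro x i
    rw [Int.floor_eq_iff, le_div_iff₀ hδ, div_lt_iff₀ hδ, Set.mem_Ico]
    constructor <;> rintro ⟨h, h'⟩ <;> constructor <;> nlinarith
  rw [← setLIntegral_univ, hU, lintegral_iUnion (fun p => hfl (measurableSet_singleton p))
    (fun p q hpq => Set.disjoint_left.2 fun z hz hz' => hpq (hz.symm.trans hz')),
    lintegral_tsum (f := fun (p : ℤ × ℤ) (z : ℝ × ℝ) => φ (z.1 + δ * p.1, z.2 + δ * p.2))
      fun p => (hφ.comp (by fun_prop)).aemeasurable]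
  refine tsum_congr fun p => ?_
  rw [← (measurePreserving_add_right (volume : Measure (ℝ × ℝ))
    ((δ * p.1, δ * p.2) : ℝ × ℝ)).setLIntegral_comp_preimage_emb (measurableEmbedding_addRight _)]
  have : (fun z : ℝ × ℝ => z + ((δ * p.1, δ * p.2) : ℝ × ℝ)) ⁻¹' (fl ⁻¹' {p}) =
      Set.Ico (0 : ℝ) δ ×ˢ Set.Ico (0 : ℝ) δ := by
    ext z
    simp only [fl, Set.mem_preimage, Set.mem_singleton_iff, Set.mem_prod, Prod.ext_iff,
      Prod.fst_add, Prod.snd_add, h1]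
  rw [this]
  rfl

/-- cutting an annulus into cells -/
theorem cells {δ : ℝ} (hδ : 0 < δ) {e r : ℕ} (her : e ≤ r) {h : ℝ → ℂ}
    (hi : IntegrableOn h {t : ℝ | δ * e < |t| ∧ |t| < δ * r}) :
    ∫ t in {t : ℝ | δ * e < |t| ∧ |t| < δ * r}, h t =
      ∫ t in Set.Ioo 0 δ, ∑ τ ∈ Finset.Ico e r, (h (δ * τ + t) + h (δ * (-1 - τ) + t)) := by
  have he : 0 ≤ δ * e := by positivity
  have her' : δ * e ≤ δ * r := by gcongr
  have hA : {t : ℝ | δ * e < |t| ∧ |t| < δ * r} =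
      Set.Ioo (δ * e) (δ * r) ∪ Set.Ioo (-(δ * r)) (-(δ * e)) := by
    ext t
    simp only [Set.mem_ofPred_eq, Set.mem_union, Set.mem_Ioo]
    rcases le_total 0 t with ht | ht
    · rw [abs_of_nonneg ht]
      constructor
      · exact fun h => Or.inl h
      · rintro (h | h)
        · exact h
        · exfalso; linarith [h.2]
    · rw [abs_of_nonpos ht]
      constructor
      · exact fun h => Or.inr ⟨by linarith [h.2], by linarith [h.1]⟩
      · rintro (h | h)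
        · exfalso; linarith [h.1]
        · exact ⟨by linarith [h.2], by linarith [h.1]⟩
  rw [hA] at hi ⊢
  have hp : IntervalIntegrable h volume (δ * e) (δ * r) :=
    (intervalIntegrable_iff_integrableOn_Ioo_of_le her').2 (hi.mono_set Set.subset_union_left)
  have hn : IntervalIntegrable h volume (-(δ * r)) (-(δ * e)) :=
    (intervalIntegrable_iff_integrableOn_Ioo_of_le (by linarith)).2
      (hi.mono_set Set.subset_union_right)
  have hp' : ∀ τ ∈ Set.Ico e r, IntervalIntegrable h volume (δ * τ) (δ * (τ + 1 : ℕ)) := by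
    intro τ hτ
    have h1 : δ * e ≤ δ * τ := by gcongr; exact hτ.1
    have h2 : δ * (τ + 1 : ℕ) ≤ δ * r := by gcongr; exact hτ.2
    have h3 : δ * τ ≤ δ * (τ + 1 : ℕ) := by gcongr; omega
    refine hp.mono_set ?_
    rw [Set.uIcc_of_le h3, Set.uIcc_of_le her']
    exact Set.Icc_subset_Icc h1 h2
  have hn' : ∀ τ ∈ Set.Ico e r,
      IntervalIntegrable h volume (-(δ * τ)) (-(δ * (τ + 1 : ℕ))) := by
    intro τ hτ
    have h1 : δ * e ≤ δ * τ := by gcongr; exact hτ.1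
    have h2 : δ * (τ + 1 : ℕ) ≤ δ * r := by gcongr; exact hτ.2
    have h3 : δ * τ ≤ δ * (τ + 1 : ℕ) := by gcongr; omega
    refine hn.mono_set ?_
    rw [Set.uIcc_of_ge (by linarith), Set.uIcc_of_le (by linarith)]
    exact Set.Icc_subset_Icc (by linarith) (by linarith)
  have hp'' : ∀ τ ∈ Finset.Ico e r, IntervalIntegrable (fun t => h (δ * τ + t)) volume 0 δ := by
    intro τ hτ
    have := (hp' τ (by simpa using hτ)).comp_add_left (δ * τ)
    convert this using 1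
    · ring
    · push_cast; ring
  have hn'' : ∀ τ ∈ Finset.Ico e r,
      IntervalIntegrable (fun t => h (δ * (-1 - τ) + t)) volume 0 δ := by
    intro τ hτ
    have := (hn' τ (by simpa using hτ)).symm.comp_add_left (δ * (-1 - τ))
    convert this using 1
    · push_cast; ring
    · ring
  rw [setIntegral_union (Set.disjoint_left.2 fun t ht ht' => by linarith [ht.1, ht'.2])
    measurableSet_Ioo (hi.mono_set Set.subset_union_left) (hi.mono_set Set.subset_union_right),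
    ← integral_Ioc_eq_integral_Ioo, ← integral_Ioc_eq_integral_Ioo, ← integral_Ioc_eq_integral_Ioo,
    ← intervalIntegral.integral_of_le her', ← intervalIntegral.integral_of_le (by linarith),
    ← intervalIntegral.integral_of_le hδ.le,
    intervalIntegral.integral_finsetSum fun τ hτ => (hp'' τ hτ).add (hn'' τ hτ),
    ← intervalIntegral.sum_integral_adjacent_intervals_Ico (a := fun τ : ℕ => δ * τ) her hp',
    intervalIntegral.integral_symm,
    ← intervalIntegral.sum_integral_adjacent_intervals_Ico (a := fun τ : ℕ => -(δ * τ)) her hn',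
    ← Finset.sum_neg_distrib, ← Finset.sum_add_distrib]
  refine Finset.sum_congr rfl fun τ hτ => ?_
  rw [intervalIntegral.integral_add (hp'' τ hτ) (hn'' τ hτ), intervalIntegral.integral_comp_add_left,
    intervalIntegral.integral_comp_add_left, ← intervalIntegral.integral_symm]
  congr 1
  · congr 1
    · ring
    · push_cast; ring
  · congr 1
    · push_cast; ring
    · ring

/-- the sampled first input -/
def fs (F : ℝ × ℝ → ℂ) (δ : ℝ) (z : ℝ × ℝ) (t : ℝ) (i j : ℤ) : ℂ :=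
  F (z.1 + t + δ * i, z.2 + δ * j)

/-- the sampled second input -/
def gs (G : ℝ × ℝ → ℂ) (δ : ℝ) (z : ℝ × ℝ) (t : ℝ) (i j : ℤ) : ℂ :=
  G (z.1 + δ * i, z.2 + t + δ * j)

/-- the sampled count at the origin of the lattice through `z` -/
noncomputable def D0 (n : ℕ) (F G : ℝ × ℝ → ℂ) (δ : ℝ) (z : ℝ × ℝ) (t : ℝ) : ℝ≥0∞ :=
  discCount n (t / δ) (fs F δ z t) (gs G δ z t) 0 0

theorem D0_shift (n : ℕ) (F G : ℝ × ℝ → ℂ) (δ : ℝ) (z : ℝ × ℝ) (t : ℝ) (i j : ℤ) :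
    D0 n F G δ (z.1 + δ * i, z.2 + δ * j) t =
      discCount n (t / δ) (fs F δ z t) (gs G δ z t) i j := by
  have : ∀ e R, beta (t / δ) (fs F δ (z.1 + δ * i, z.2 + δ * j) t)
      (gs G δ (z.1 + δ * i, z.2 + δ * j) t) e R 0 0 =
      beta (t / δ) (fs F δ z t) (gs G δ z t) e R i j := by
    intro e R
    unfold beta fs gs
    refine Finset.sum_congr rfl fun τ _ => ?_
    congr 4 <;> (congr 1 <;> (push_cast; ring))
  simp only [D0, discCount, this]

theorem meas_beta {F G : ℝ × ℝ → ℂ} (hF : Measurable F) (hG : Measurable G) (δ : ℝ) (e R : ℕ) :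
    Measurable fun w : (ℝ × ℝ) × ℝ =>
      beta (w.2 / δ) (fs F δ w.1 w.2) (gs G δ w.1 w.2) e R 0 0 := by
  unfold beta fs gs
  refine Finset.measurable_sum _ fun τ _ => Measurable.add ?_ ?_
  · exact ((hF.comp (by fun_prop)).mul (hG.comp (by fun_prop))).div (by fun_prop)
  · exact ((hF.comp (by fun_prop)).mul (hG.comp (by fun_prop))).div (by fun_prop)

theorem meas_D0 (n : ℕ) {F G : ℝ × ℝ → ℂ} (hF : Measurable F) (hG : Measurable G) (δ : ℝ) :
    Measurable fun w : (ℝ × ℝ) × ℝ => D0 n F G δ w.1 w.2 := by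
  unfold D0 discCount
  refine Measurable.iSup fun m => Measurable.iSup fun _ => Measurable.iSup fun e =>
    Measurable.iSup fun R => Measurable.iSup fun _ => Measurable.iSup fun _ => ?_
  exact Finset.measurable_sum _ fun a _ => (meas_beta hF hG δ (e a) (R a)).enorm

/-- the normalised Lebesgue measure on `(0, δ)` -/
noncomputable def nuD (δ : ℝ) : Measure ℝ := (ENNReal.ofReal δ)⁻¹ • volume.restrict (Set.Ioo 0 δ)

theorem nuD_prob {δ : ℝ} (hδ : 0 < δ) : IsProbabilityMeasure (nuD δ) := by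
  constructor
  simp only [nuD, Measure.smul_apply, MeasurableSet.univ, Measure.restrict_apply, Set.univ_inter,
    Real.volume_Ioo, sub_zero, smul_eq_mul]
  exact ENNReal.inv_mul_cancel (by simpa using hδ) ENNReal.ofReal_ne_top

theorem enorm_le_beta (F G : ℝ × ℝ → ℂ) {δ : ℝ} (hδ : 0 < δ) {e r : ℕ} (her : e ≤ r)
    (z : ℝ × ℝ) :
    ‖annularTriangularHT F G (δ * e) (δ * r) z‖ₑ ≤
      ∫⁻ t, ‖beta (t / δ) (fs F δ z t) (gs G δ z t) e r 0 0‖ₑ ∂nuD δ := by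
  unfold annularTriangularHT
  by_cases hi : IntegrableOn (fun t : ℝ => F (z.1 + t, z.2) * G (z.1, z.2 + t) / (t : ℂ))
    {t : ℝ | δ * e < |t| ∧ |t| < δ * r}
  · rw [cells hδ her hi]
    refine (enorm_integral_le_lintegral_enorm _).trans (le_of_eq ?_)
    rw [nuD, lintegral_smul_measure, smul_eq_mul, ← lintegral_const_mul' _ _ (by simpa using hδ)]
    refine lintegral_congr fun t => ?_
    have hδ' : (δ : ℂ) ≠ 0 := by exact_mod_cast hδ.ne'
    have : ∑ τ ∈ Finset.Ico e r,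
        (F (z.1 + (δ * τ + t), z.2) * G (z.1, z.2 + (δ * τ + t)) / ((δ * τ + t : ℝ) : ℂ) +
          F (z.1 + (δ * (-1 - τ) + t), z.2) * G (z.1, z.2 + (δ * (-1 - τ) + t)) /
            ((δ * (-1 - τ) + t : ℝ) : ℂ)) =
        (δ : ℂ)⁻¹ * beta (t / δ) (fs F δ z t) (gs G δ z t) e r 0 0 := by
      unfold beta fs gs
      rw [Finset.mul_sum]
      refine Finset.sum_congr rfl fun τ _ => ?_
      have e1 : ((δ * τ + t : ℝ) : ℂ) = δ * (((τ : ℝ) + t / δ : ℝ) : ℂ) := by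
        push_cast; field_simp
      have e2 : ((δ * (-1 - τ) + t : ℝ) : ℂ) = δ * ((-1 - (τ : ℝ) + t / δ : ℝ) : ℂ) := by
        push_cast; field_simp
      rw [e1, e2, mul_add, div_mul_eq_div_div_swap, div_mul_eq_div_div_swap, div_eq_inv_mul _ (δ : ℂ),
        div_eq_inv_mul _ (δ : ℂ)]
      congr 5 <;> (congr 1 <;> (push_cast; ring))
    rw [this, enorm_mul, enorm_inv hδ', ← ofReal_norm (δ : ℂ), Complex.norm_real,
      Real.norm_of_nonneg hδ.le]
  · rw [integral_undef hi]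
    simp

theorem sum_le_D0 {F G : ℝ × ℝ → ℂ} (hF : Measurable F) (hG : Measurable G) {δ : ℝ} (hδ : 0 < δ)
    {n m : ℕ} (hm : m ≤ n) {e R : Fin m → ℕ} (h1 : ∀ a, 1 ≤ e a ∧ e a < R a)
    (h2 : ∀ a a', a ≠ a' → R a ≤ e a' ∨ R a' ≤ e a) (z : ℝ × ℝ) :
    ∑ a, ‖annularTriangularHT F G (δ * e a) (δ * R a) z‖ₑ ≤ ∫⁻ t, D0 n F G δ z t ∂nuD δ := by
  refine (Finset.sum_le_sum fun a _ => enorm_le_beta F G hδ (h1 a).2.le z).trans ?_
  rw [← lintegral_finsetSum (f := fun a t =>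
    ‖beta (t / δ) (fs F δ z t) (gs G δ z t) (e a) (R a) 0 0‖ₑ) _ fun a _ =>
    ((meas_beta hF hG δ (e a) (R a)).comp measurable_prodMk_left).enorm]
  refine lintegral_mono fun t => ?_
  unfold D0 discCount
  exact le_iSup_of_le m (le_iSup_of_le hm (le_iSup_of_le e (le_iSup_of_le R
    (le_iSup_of_le h1 (le_iSup_of_le h2 le_rfl)))))

theorem jensen {α : Type*} [MeasurableSpace α] (ν : Measure α) [IsProbabilityMeasure ν]
    {φ : α → ℝ≥0∞} (hφ : Measurable φ) :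
    (∫⁻ t, φ t ∂ν) ^ (3 / 2 : ℝ) ≤ ∫⁻ t, φ t ^ (3 / 2 : ℝ) ∂ν := by
  have hpq : (3 / 2 : ℝ).HolderConjugate 3 := Real.holderConjugate_iff.2 ⟨by norm_num, by norm_num⟩
  have := ENNReal.lintegral_mul_le_Lp_mul_Lq ν hpq hφ.aemeasurable
    (aemeasurable_const (b := (1 : ℝ≥0∞)))
  simp only [Pi.mul_apply, mul_one, ENNReal.one_rpow, lintegral_const, measure_univ] at this
  refine (ENNReal.rpow_le_rpow this (by norm_num)).trans (le_of_eq ?_)
  rw [← ENNReal.rpow_mul]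
  norm_num

theorem exists_nat_mul_factorial {q : ℚ} (hq : 0 < q) {N : ℕ} (hN : q.den ≤ N) :
    ∃ k : ℕ, (k : ℚ) = q * N.factorial := by
  obtain ⟨c, hc⟩ := Nat.dvd_factorial q.den_pos hN
  refine ⟨q.num.toNat * c, ?_⟩
  have h1 : ((q.num.toNat : ℕ) : ℚ) = q.num := by
    have : ((q.num.toNat : ℕ) : ℤ) = q.num := Int.toNat_of_nonneg (Rat.num_nonneg.2 hq.le)
    exact_mod_cast this
  rw [hc]
  push_cast
  rw [h1, ← mul_assoc, Rat.mul_den_eq_num]

theorem fam_le {F G : ℝ × ℝ → ℂ} (hF : Measurable F) (hG : Measurable G) {n m : ℕ} (hm : m ≤ n)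
    {ε R : Fin m → ℚ} (h1 : ∀ a, 0 < ε a ∧ ε a < R a)
    (h2 : ∀ a a', a ≠ a' → R a ≤ ε a' ∨ R a' ≤ ε a) (z : ℝ × ℝ) {N : ℕ}
    (hε : ∀ a, (ε a).den ≤ N) (hR : ∀ a, (R a).den ≤ N) {δ : ℝ} (hδN : δ = (N.factorial : ℝ)⁻¹) :
    ∑ a, ‖annularTriangularHT F G (ε a) (R a) z‖ₑ ≤ ∫⁻ t, D0 n F G δ z t ∂nuD δ := by
  choose e he using fun a => exists_nat_mul_factorial (h1 a).1 (hε a)
  choose r hr using fun a => exists_nat_mul_factorial ((h1 a).1.trans (h1 a).2) (hR a)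
  have hN : (0 : ℚ) < N.factorial := by exact_mod_cast N.factorial_pos
  have hN' : (0 : ℝ) < N.factorial := by exact_mod_cast N.factorial_pos
  have hδ : (0 : ℝ) < δ := hδN ▸ inv_pos.2 hN'
  have e1 : ∀ a, (ε a : ℝ) = δ * e a := fun a => by
    have : ((e a : ℚ) : ℝ) = ((ε a * N.factorial : ℚ) : ℝ) := by rw [he a]
    push_cast at this
    rw [this, hδN]; field_simp
  have e2 : ∀ a, (R a : ℝ) = δ * r a := fun a => by
    have : ((r a : ℚ) : ℝ) = ((R a * N.factorial : ℚ) : ℝ) := by rw [hr a]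
    push_cast at this
    rw [this, hδN]; field_simp
  have e3 : ∑ a, ‖annularTriangularHT F G (ε a) (R a) z‖ₑ =
      ∑ a, ‖annularTriangularHT F G (δ * e a) (δ * r a) z‖ₑ :=
    Finset.sum_congr rfl fun a _ => by rw [e1 a, e2 a]
  rw [e3]
  refine sum_le_D0 hF hG hδ hm (fun a => ⟨?_, ?_⟩) (fun a a' haa => ?_) z
  · have : (0 : ℚ) < e a := by rw [he a]; exact mul_pos (h1 a).1 hN
    exact_mod_cast this
  · have : (e a : ℚ) < r a := by rw [he a, hr a]; exact mul_lt_mul_of_pos_right (h1 a).2 hN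
    exact_mod_cast this
  · rcases h2 a a' haa with h | h
    · left
      have : (r a : ℚ) ≤ e a' := by rw [he a', hr a]; exact mul_le_mul_of_nonneg_right h hN.le
      exact_mod_cast this
    · right
      have : (r a' : ℚ) ≤ e a := by rw [he a, hr a']; exact mul_le_mul_of_nonneg_right h hN.le
      exact_mod_cast this

theorem fam_le' {F G : ℝ × ℝ → ℂ} (hF : Measurable F) (hG : Measurable G) {n m : ℕ} (hm : m ≤ n)
    {ε R : Fin m → ℚ} (h1 : ∀ a, 0 < ε a ∧ ε a < R a)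
    (h2 : ∀ a a', a ≠ a' → R a ≤ ε a' ∨ R a' ≤ ε a) (z : ℝ × ℝ) {N : ℕ}
    (hε : ∀ a, (ε a).den ≤ N) (hR : ∀ a, (R a).den ≤ N) {δ : ℝ} (hδN : δ = (N.factorial : ℝ)⁻¹) :
    (∑ a, ‖annularTriangularHT F G (ε a) (R a) z‖ₑ) ^ (3 / 2 : ℝ) ≤
      ∫⁻ t, D0 n F G δ z t ^ (3 / 2 : ℝ) ∂nuD δ := by
  have hδ : (0 : ℝ) < δ := hδN ▸ inv_pos.2 (by exact_mod_cast N.factorial_pos)
  have := nuD_prob hδ
  have hD : Measurable fun t => D0 n F G δ z t :=
    (meas_D0 n hF hG δ).comp (f := fun t : ℝ => (z, t)) measurable_prodMk_left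
  exact (ENNReal.rpow_le_rpow (fam_le hF hG hm h1 h2 z hε hR hδN) (by norm_num)).trans
    (jensen (nuD δ) (φ := fun t => D0 n F G δ z t) hD)

theorem count_le_liminf {F G : ℝ × ℝ → ℂ} (hF : Measurable F) (hG : Measurable G) (n : ℕ)
    (z : ℝ × ℝ) :
    annulusCount n F G z ^ (3 / 2 : ℝ) ≤ Filter.liminf (fun N : ℕ =>
      ∫⁻ t, D0 n F G ((N.factorial : ℝ)⁻¹) z t ^ (3 / 2 : ℝ) ∂nuD ((N.factorial : ℝ)⁻¹))
      Filter.atTop := by
  have key : ∀ L : ℝ≥0∞, (∀ m ≤ n, ∀ ε R : Fin m → ℚ, (∀ a, 0 < ε a ∧ ε a < R a) →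
      (∀ a a', a ≠ a' → R a ≤ ε a' ∨ R a' ≤ ε a) →
      (∑ a, ‖annularTriangularHT F G (ε a) (R a) z‖ₑ) ^ (3 / 2 : ℝ) ≤ L) →
      annulusCount n F G z ^ (3 / 2 : ℝ) ≤ L := by
    intro L hL
    rw [← ENNReal.le_rpow_inv_iff (by norm_num)]
    unfold annulusCount
    refine iSup_le fun m => iSup_le fun hm => iSup_le fun ε => iSup_le fun R =>
      iSup_le fun h1 => iSup_le fun h2 => ?_
    rw [ENNReal.le_rpow_inv_iff (by norm_num)]
    exact hL m hm ε R h1 h2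
  refine key _ fun m hm ε R h1 h2 => ?_
  refine Filter.le_liminf_of_le (by isBoundedDefault) ?_
  have hε : ∀ᶠ N : ℕ in Filter.atTop, ∀ a, (ε a).den ≤ N :=
    Filter.eventually_all.2 fun a => Filter.eventually_ge_atTop _
  have hR : ∀ᶠ N : ℕ in Filter.atTop, ∀ a, (R a).den ≤ N :=
    Filter.eventually_all.2 fun a => Filter.eventually_ge_atTop _
  filter_upwards [hε, hR] with N hε hR
  exact fam_le' hF hG hm h1 h2 z hε hR rfl

theorem lintegral_D0_le {K : ℝ≥0∞} {n : ℕ} {F G : ℝ × ℝ → ℂ} (hF : Measurable F)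
    (hG : Measurable G) {δ : ℝ} (hδ : 0 < δ) (t : ℝ)
    (hK : ∀ f g : ℤ → ℤ → ℂ, ∑' z : ℤ × ℤ, discCount n (t / δ) f g z.1 z.2 ^ (3 / 2 : ℝ) ≤
      K * (∑' z : ℤ × ℤ, ‖f z.1 z.2‖ₑ ^ 3 + ∑' z : ℤ × ℤ, ‖g z.1 z.2‖ₑ ^ 3)) :
    ∫⁻ z, D0 n F G δ z t ^ (3 / 2 : ℝ) ≤ K * ((∫⁻ z, ‖F z‖ₑ ^ 3) + ∫⁻ z, ‖G z‖ₑ ^ 3) := by
  have hD : Measurable fun z => D0 n F G δ z t ^ (3 / 2 : ℝ) :=
    ((meas_D0 n hF hG δ).comp measurable_prodMk_right).pow_const _
  have hF1 : Measurable fun z : ℝ × ℝ => ‖F (z + (t, 0))‖ₑ ^ 3 :=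
    (hF.comp (by fun_prop)).enorm.pow_const _
  have hG1 : Measurable fun z : ℝ × ℝ => ‖G (z + (0, t))‖ₑ ^ 3 :=
    (hG.comp (by fun_prop)).enorm.pow_const _
  have hF2 : Measurable fun z : ℝ × ℝ => ∑' p : ℤ × ℤ, ‖fs F δ z t p.1 p.2‖ₑ ^ 3 :=
    Measurable.tsum fun p => (hF.comp (by fun_prop)).enorm.pow_const _
  have hG2 : Measurable fun z : ℝ × ℝ => ∑' p : ℤ × ℤ, ‖gs G δ z t p.1 p.2‖ₑ ^ 3 :=
    Measurable.tsum fun p => (hG.comp (by fun_prop)).enorm.pow_const _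
  rw [unfold2 hδ hD, ← lintegral_add_right_eq_self (fun z => ‖F z‖ₑ ^ 3) ((t, 0) : ℝ × ℝ),
    ← lintegral_add_right_eq_self (fun z => ‖G z‖ₑ ^ 3) ((0, t) : ℝ × ℝ), unfold2 hδ hF1,
    unfold2 hδ hG1]
  have eF : ∀ (z : ℝ × ℝ) (p : ℤ × ℤ),
      F (((z.1 + δ * p.1, z.2 + δ * p.2) : ℝ × ℝ) + (t, 0)) = fs F δ z t p.1 p.2 := fun z p => by
    unfold fs; congr 1; ext <;> simp; ring
  have eG : ∀ (z : ℝ × ℝ) (p : ℤ × ℤ),
      G (((z.1 + δ * p.1, z.2 + δ * p.2) : ℝ × ℝ) + (0, t)) = gs G δ z t p.1 p.2 := fun z p => by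
    unfold gs; congr 1; ext <;> simp; ring
  simp only [eF, eG, D0_shift]
  have hFG : Measurable fun z : ℝ × ℝ => (∑' p : ℤ × ℤ, ‖fs F δ z t p.1 p.2‖ₑ ^ 3) +
      ∑' p : ℤ × ℤ, ‖gs G δ z t p.1 p.2‖ₑ ^ 3 := hF2.add hG2
  rw [← lintegral_add_left hF2, ← lintegral_const_mul _ hFG]
  exact lintegral_mono fun z => hK _ _

end Cont

theorem measurable_annularTriangularHT {F G : ℝ × ℝ → ℂ} (hF : Measurable F) (hG : Measurable G)
    (ε R : ℝ) : Measurable (annularTriangularHT F G ε R) := by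
  have h : Measurable fun w : (ℝ × ℝ) × ℝ =>
      F (w.1.1 + w.2, w.1.2) * G (w.1.1, w.1.2 + w.2) / (w.2 : ℂ) :=
    ((hF.comp (by fun_prop)).mul (hG.comp (by fun_prop))).div (by fun_prop)
  exact (h.stronglyMeasurable.integral_prod_right'
    (ν := volume.restrict {t : ℝ | ε < abs t ∧ abs t < R})).measurable

theorem measurable_annulusCount {F G : ℝ × ℝ → ℂ} (hF : Measurable F) (hG : Measurable G)
    (n : ℕ) : Measurable (annulusCount n F G) := by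
  unfold annulusCount
  refine Measurable.iSup fun m => Measurable.iSup fun _ => Measurable.iSup fun e =>
    Measurable.iSup fun R => Measurable.iSup fun _ => Measurable.iSup fun _ => ?_
  exact Finset.measurable_sum _ fun a _ => (measurable_annularTriangularHT hF hG _ _).enorm

/-- `annulusCount n F G = ⨆_N S_N`, `S_N` the supremum over the families whose radii are multiples of
`δ = 1/N!` (monotone in `N`, measurable), so it suffices to bound `∫ S_N^{3/2}` (`lintegral_iSup`).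
For `z = (x, y)`, `t₀ ∈ (0, δ)` put `f_{z,t₀} i j = F (x + t₀ + δ i, y + δ j)`,
`g_{z,t₀} i j = G (x + δ i, y + t₀ + δ j)`, `γ = t₀/δ`.  Cutting `{ε < |t| < R}`, `ε = δ e`, `R = δ r`, into cells
`δ τ + (0, δ)` gives `B_{ε,R}(x + δ i, y + δ j) = δ⁻¹ ∫_{t₀ ∈ (0,δ)} beta γ f g e r i j` when the integrand is integrable
(and `B = 0` otherwise), so always
`S_N (x + δ i, y + δ j) ≤ δ⁻¹ ∫⁻_{t₀ ∈ (0,δ)} discCount n γ f g i j`, and by Hölder (Jensen for the probability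
measure `δ⁻¹ dt₀`) `S_N^{3/2} ≤ δ⁻¹ ∫⁻_{t₀ ∈ (0,δ)} discCount^{3/2}`.  Write `∫⁻_{ℝ²} = ∫⁻_{(x,y) ∈ [0,δ)²} ∑'_{i,j}`,
swap, apply `discZ`, and unfold the lattice sums again:
`∫⁻_{(x,y)} ∑' ‖f_{z,t₀}‖³ = ∫⁻ ‖F‖³` for every `t₀` (translation invariance). -/
theorem count_add : ∃ C : ℝ, 0 ≤ C ∧ ∀ n : ℕ, 1 ≤ n → ∀ F G : ℝ × ℝ → ℂ,
    Measurable F → Measurable G →
      ∫⁻ z, annulusCount n F G z ^ (3 / 2 : ℝ) ≤
        ENNReal.ofReal ((C * √n) ^ (3 / 2 : ℝ)) * ((∫⁻ z, ‖F z‖ₑ ^ 3) + ∫⁻ z, ‖G z‖ₑ ^ 3) := by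
  obtain ⟨C, hC, h⟩ := discZ
  refine ⟨C, hC, fun n hn F G hF hG => ?_⟩
  have hM : ∀ δ : ℝ, Measurable fun w : (ℝ × ℝ) × ℝ => Cont.D0 n F G δ w.1 w.2 ^ (3 / 2 : ℝ) :=
    fun δ => (Cont.meas_D0 n hF hG δ).pow_const _
  have hδ : ∀ N : ℕ, (0 : ℝ) < (N.factorial : ℝ)⁻¹ := fun N =>
    inv_pos.2 (by exact_mod_cast N.factorial_pos)
  refine (lintegral_mono fun z => Cont.count_le_liminf hF hG n z).trans
    ((lintegral_liminf_le fun N => ?_).trans (Filter.liminf_le_of_frequently_le'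
      (Filter.Frequently.of_forall fun N => ?_)))
  · have := Cont.nuD_prob (hδ N)
    exact (hM _).lintegral_prod_right'
  · have := Cont.nuD_prob (hδ N)
    rw [lintegral_lintegral_swap (hM _).aemeasurable]
    refine (lintegral_mono_ae (g := fun _ => ENNReal.ofReal ((C * √n) ^ (3 / 2 : ℝ)) *
      ((∫⁻ z, ‖F z‖ₑ ^ 3) + ∫⁻ z, ‖G z‖ₑ ^ 3)) ?_).trans (by simp)
    have hae : ∀ᵐ t ∂Cont.nuD ((N.factorial : ℝ)⁻¹), t ∈ Set.Ioo 0 ((N.factorial : ℝ)⁻¹) :=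
      Measure.ae_smul_measure (ae_restrict_mem measurableSet_Ioo) _
    filter_upwards [hae] with t ht
    exact Cont.lintegral_D0_le hF hG (hδ N) t fun f g =>
      h n _ hn (div_nonneg ht.1.le (hδ N).le) ((div_le_one (hδ N)).2 ht.2.le) f g

end Crest.Agent.R72
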