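import Crest.Agent.R72.Cont

/-! # R72 task Count: a.e.-modification, homogeneity; the variation from the count -/

set_option autoImplicit false

namespace Crest.Agent.R72

open Matrix Finset

open MeasureTheory Crest.AnalysisR
open scoped ENNReal

namespace Count

/-- an a.e. property of the plane holds, for a.e. `z`, at a.e. point `z + v t` of a curve -/
theorem ae_ae_translate {P : ℝ × ℝ → Prop} (hP : ∀ᵐ p, P p) {v : ℝ → ℝ × ℝ} (hv : Measurable v) :
    ∀ᵐ z : ℝ × ℝ, ∀ᵐ t : ℝ, P (z + v t) := by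
  obtain ⟨N, hsub, hN, hN0⟩ := exists_measurable_superset_of_null (ae_iff.1 hP)
  have hmeas : MeasurableSet {q : (ℝ × ℝ) × ℝ | q.1 + v q.2 ∉ N} := by
    have : Measurable fun q : (ℝ × ℝ) × ℝ => q.1 + v q.2 :=
      measurable_fst.add (hv.comp measurable_snd)
    exact (this hN).compl
  have h1 : ∀ᵐ t : ℝ, ∀ᵐ z : ℝ × ℝ, z + v t ∉ N := by
    refine Filter.Eventually.of_forall fun t => ?_
    have hq : MeasurePreserving (fun z : ℝ × ℝ => z + v t) volume volume :=
      measurePreserving_add_right volume (v t)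
    have hN' : ∀ᵐ p : ℝ × ℝ, p ∉ N := by
      rw [ae_iff]; simpa using hN0
    exact hq.quasiMeasurePreserving.ae hN'
  have h2 : ∀ᵐ z : ℝ × ℝ, ∀ᵐ t : ℝ, z + v t ∉ N :=
    (Measure.ae_ae_comm (p := fun (z : ℝ × ℝ) (t : ℝ) => z + v t ∉ N) hmeas).2 h1
  filter_upwards [h2] with z hz
  filter_upwards [hz] with t ht
  by_contra hc
  exact ht (hsub hc)

theorem annularTriangularHT_smul (a b : ℂ) (F G : ℝ × ℝ → ℂ) (ε R : ℝ) (z : ℝ × ℝ) :
    annularTriangularHT (a • F) (b • G) ε R z = a * b * annularTriangularHT F G ε R z := by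
  unfold annularTriangularHT
  rw [← integral_const_mul]
  congr 1
  funext t
  simp only [Pi.smul_apply, smul_eq_mul]
  ring

theorem annulusCount_smul (n : ℕ) (a b : ℂ) (F G : ℝ × ℝ → ℂ) (z : ℝ × ℝ) :
    annulusCount n (a • F) (b • G) z = ‖a‖ₑ * ‖b‖ₑ * annulusCount n F G z := by
  unfold annulusCount
  simp only [ENNReal.mul_iSup, annularTriangularHT_smul, enorm_mul, Finset.mul_sum]

theorem lintegral_cube_eq (F : ℝ × ℝ → ℂ) :
    ∫⁻ z, ‖F z‖ₑ ^ 3 = eLpNorm F 3 volume ^ 3 := by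
  rw [eLpNorm_eq_lintegral_rpow_enorm_toReal (by norm_num) (by norm_num)]
  have h3 : (3 : ℝ≥0∞).toReal = ((3 : ℕ) : ℝ) := by norm_num
  rw [h3, ← ENNReal.rpow_natCast, ← ENNReal.rpow_mul]
  simp only [ENNReal.rpow_natCast]
  norm_num

end Count

/-- the maps `(z, t) ↦ (z.1 + t, z.2)` and `(z, t) ↦ (z.1, z.2 + t)` are quasi measure preserving -/
theorem annularTriangularHT_congr {F F' G G' : ℝ × ℝ → ℂ} (hF : F =ᵐ[volume] F')
    (hG : G =ᵐ[volume] G') :
    ∀ᵐ z, ∀ ε R : ℝ, annularTriangularHT F G ε R z = annularTriangularHT F' G' ε R z := by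
  have h1 := Count.ae_ae_translate (P := fun p => F p = F' p) hF (v := fun t => (t, 0))
    (measurable_id.prodMk measurable_const)
  have h2 := Count.ae_ae_translate (P := fun p => G p = G' p) hG (v := fun t => (0, t))
    (measurable_const.prodMk measurable_id)
  filter_upwards [h1, h2] with z hz1 hz2
  intro ε R
  unfold annularTriangularHT
  refine integral_congr_ae (ae_restrict_of_ae ?_)
  filter_upwards [hz1, hz2] with t ht1 ht2
  have e1 : z + (t, 0) = (z.1 + t, z.2) := by ext <;> simp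
  have e2 : z + (0, t) = (z.1, z.2 + t) := by ext <;> simp
  rw [e1] at ht1
  rw [e2] at ht2
  rw [ht1, ht2]

theorem Count.annulusCount_congr {F F' G G' : ℝ × ℝ → ℂ} (hF : F =ᵐ[volume] F')
    (hG : G =ᵐ[volume] G') (n : ℕ) : annulusCount n F G =ᵐ[volume] annulusCount n F' G' := by
  filter_upwards [annularTriangularHT_congr hF hG] with z hz
  unfold annulusCount
  simp only [hz]

theorem aemeasurable_annulusCount {F G : ℝ × ℝ → ℂ} (hF : AEStronglyMeasurable F volume)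
    (hG : AEStronglyMeasurable G volume) (n : ℕ) : AEMeasurable (annulusCount n F G) volume :=
  (measurable_annulusCount hF.stronglyMeasurable_mk.measurable hG.stronglyMeasurable_mk.measurable
    n).aemeasurable.congr (Count.annulusCount_congr hF.ae_eq_mk hG.ae_eq_mk n).symm

/-- the additive bound for a.e.-measurable inputs -/
theorem Count.count_add_ae : ∃ C : ℝ, 0 ≤ C ∧ ∀ n : ℕ, 1 ≤ n → ∀ F G : ℝ × ℝ → ℂ,
    AEStronglyMeasurable F volume → AEStronglyMeasurable G volume →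
      ∫⁻ z, annulusCount n F G z ^ (3 / 2 : ℝ) ≤
        ENNReal.ofReal ((C * √n) ^ (3 / 2 : ℝ)) *
          (eLpNorm F 3 volume ^ 3 + eLpNorm G 3 volume ^ 3) := by
  obtain ⟨C, hC, h⟩ := count_add
  refine ⟨C, hC, fun n hn F G hF hG => ?_⟩
  have h1 := h n hn _ _ hF.stronglyMeasurable_mk.measurable hG.stronglyMeasurable_mk.measurable
  rw [Count.lintegral_cube_eq, Count.lintegral_cube_eq, ← eLpNorm_congr_ae hF.ae_eq_mk,
    ← eLpNorm_congr_ae hG.ae_eq_mk] at h1
  refine le_trans (le_of_eq (lintegral_congr_ae ?_)) h1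
  filter_upwards [Count.annulusCount_congr hF.ae_eq_mk hG.ae_eq_mk n] with z hz
  rw [hz]

/-- replace `F, G` by measurable versions, normalise `‖F‖₃ = ‖G‖₃ = 1`
(`annulusCount n (a • F) (b • G) = ‖a‖ₑ ‖b‖ₑ annulusCount n F G`; if a norm is `0` the count vanishes a.e.) and
use `count_add`. -/
theorem count_bound : ∃ C : ℝ, 0 ≤ C ∧ ∀ n : ℕ, 1 ≤ n → ∀ F G : ℝ × ℝ → ℂ,
    MemLp F 3 volume → MemLp G 3 volume →
      (∫⁻ z, annulusCount n F G z ^ (3 / 2 : ℝ)) ^ (2 / 3 : ℝ) ≤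
        ENNReal.ofReal (C * √n) * eLpNorm F 3 volume * eLpNorm G 3 volume := by
  obtain ⟨C, hC, h⟩ := Count.count_add_ae
  refine ⟨2 * C, by positivity, fun n hn F G hF hG => ?_⟩
  -- the degenerate cases
  have hzero : ∀ F' G' : ℝ × ℝ → ℂ, F =ᵐ[volume] F' → G =ᵐ[volume] G' →
      (∀ z, annulusCount n F' G' z = 0) →
      (∫⁻ z, annulusCount n F G z ^ (3 / 2 : ℝ)) ^ (2 / 3 : ℝ) = 0 := by
    intro F' G' h1 h2 h3
    have : ∫⁻ z, annulusCount n F G z ^ (3 / 2 : ℝ) = 0 := by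
      rw [← lintegral_zero (μ := (volume : Measure (ℝ × ℝ)))]
      refine lintegral_congr_ae ?_
      filter_upwards [Count.annulusCount_congr h1 h2 n] with z hz
      rw [hz, h3 z]
      exact ENNReal.zero_rpow_of_pos (by norm_num)
    rw [this]
    exact ENNReal.zero_rpow_of_pos (by norm_num)
  by_cases ha : eLpNorm F 3 volume = 0
  · have h0 : F =ᵐ[volume] (0 : ℂ) • F := by
      simpa using (eLpNorm_eq_zero_iff hF.1 (by norm_num)).1 ha
    rw [hzero ((0 : ℂ) • F) ((1 : ℂ) • G) h0 (by simp) (fun z => by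
      rw [Count.annulusCount_smul]; simp)]
    exact zero_le
  by_cases hb : eLpNorm G 3 volume = 0
  · have h0 : G =ᵐ[volume] (0 : ℂ) • G := by
      simpa using (eLpNorm_eq_zero_iff hG.1 (by norm_num)).1 hb
    rw [hzero ((1 : ℂ) • F) ((0 : ℂ) • G) (by simp) h0 (fun z => by
      rw [Count.annulusCount_smul]; simp)]
    exact zero_le
  set a := eLpNorm F 3 volume with ha_def
  set b := eLpNorm G 3 volume with hb_def
  have haT : a ≠ ⊤ := hF.2.ne
  have hbT : b ≠ ⊤ := hG.2.ne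
  have hinv : ∀ c : ℝ≥0∞, c ≠ 0 → c ≠ ⊤ → ‖((c.toReal⁻¹ : ℝ) : ℂ)‖ₑ = c⁻¹ := by
    intro c h0 hT
    have hpos : 0 < c.toReal := ENNReal.toReal_pos h0 hT
    rw [← ofReal_norm, Complex.norm_real, Real.norm_of_nonneg (inv_nonneg.2 hpos.le),
      ENNReal.ofReal_inv_of_pos hpos, ENNReal.ofReal_toReal hT]
  set α : ℂ := ((a.toReal⁻¹ : ℝ) : ℂ)
  set β : ℂ := ((b.toReal⁻¹ : ℝ) : ℂ)
  have hα : ‖α‖ₑ = a⁻¹ := hinv a ha haT
  have hβ : ‖β‖ₑ = b⁻¹ := hinv b hb hbT
  have h1 := h n hn (α • F) (β • G) (hF.1.const_smul α) (hG.1.const_smul β)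
  rw [eLpNorm_const_smul, eLpNorm_const_smul, hα, hβ, ← ha_def, ← hb_def,
    ENNReal.inv_mul_cancel ha haT, ENNReal.inv_mul_cancel hb hbT] at h1
  have hS : ∀ z, annulusCount n F G z = a * b * annulusCount n (α • F) (β • G) z := by
    intro z
    rw [Count.annulusCount_smul, hα, hβ]
    calc annulusCount n F G z = (a * a⁻¹) * (b * b⁻¹) * annulusCount n F G z := by
          rw [ENNReal.mul_inv_cancel ha haT, ENNReal.mul_inv_cancel hb hbT]; simp
      _ = _ := by ring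
  have habT : a * b ≠ ⊤ := ENNReal.mul_ne_top haT hbT
  have h2 : ∫⁻ z, annulusCount n F G z ^ (3 / 2 : ℝ) =
      (a * b) ^ (3 / 2 : ℝ) * ∫⁻ z, annulusCount n (α • F) (β • G) z ^ (3 / 2 : ℝ) := by
    rw [← lintegral_const_mul' _ _ (ENNReal.rpow_ne_top_of_nonneg (by norm_num) habT)]
    refine lintegral_congr fun z => ?_
    rw [hS z, ENNReal.mul_rpow_of_nonneg _ _ (by norm_num)]
  have hCn : 0 ≤ C * √n := by positivity
  have h3 : (∫⁻ z, annulusCount n (α • F) (β • G) z ^ (3 / 2 : ℝ)) ^ (2 / 3 : ℝ) ≤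
      ENNReal.ofReal (2 * C * √n) := by
    refine le_trans (ENNReal.rpow_le_rpow h1 (by norm_num)) ?_
    rw [ENNReal.mul_rpow_of_nonneg _ _ (by norm_num), ← ENNReal.ofReal_rpow_of_nonneg hCn (by norm_num),
      ← ENNReal.rpow_mul]
    have e1 : (3 / 2 : ℝ) * (2 / 3) = 1 := by norm_num
    rw [e1, ENNReal.rpow_one, mul_assoc, ENNReal.ofReal_mul (p := 2) (by norm_num), mul_comm]
    refine mul_le_mul_left ?_ _
    have e2 : ((1 : ℝ≥0∞) ^ 3 + 1 ^ 3) = 2 := by norm_num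
    rw [e2, ENNReal.ofReal_ofNat]
    calc (2 : ℝ≥0∞) ^ (2 / 3 : ℝ) ≤ 2 ^ (1 : ℝ) :=
          ENNReal.rpow_le_rpow_of_exponent_le (by norm_num) (by norm_num)
      _ = 2 := ENNReal.rpow_one 2
  rw [h2, ENNReal.mul_rpow_of_nonneg _ _ (by norm_num), ← ENNReal.rpow_mul]
  have e1 : (3 / 2 : ℝ) * (2 / 3) = 1 := by norm_num
  rw [e1, ENNReal.rpow_one]
  calc a * b * _ ≤ a * b * ENNReal.ofReal (2 * C * √n) := mul_le_mul_right h3 _
    _ = _ := by ring

end Crest.Agent.R72
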