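import Crest.Agent.R72.DiscZAux

/-! # R72 task DiscZ: the sampled maximal estimate on `ℤ²` -/

set_option autoImplicit false

namespace Crest.Agent.R72

open Matrix Finset

open scoped ENNReal

namespace DiscZ

/-- admissible families of annuli -/
structure Fam (n : ℕ) where
  m : ℕ
  hm : m ≤ n
  e : Fin m → ℕ
  R : Fin m → ℕ
  h1 : ∀ a, 1 ≤ e a ∧ e a < R a
  h2 : ∀ a a', a ≠ a' → R a ≤ e a' ∨ R a' ≤ e a

variable {n : ℕ}

/-- the multiplier of a family with signs `s` -/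
noncomputable def mult (φ : Fam n) (s : Fin φ.m → ℝ) (t : ℕ) : ℝ :=
  ∑ a, if t ∈ Ico (φ.e a) (φ.R a) then s a else 0

theorem mult_abs_le (φ : Fam n) {s : Fin φ.m → ℝ} (hs : ∀ a, |s a| ≤ 1) (t : ℕ) :
    |mult φ s t| ≤ 1 := by
  unfold mult
  by_cases h : ∃ a, t ∈ Ico (φ.e a) (φ.R a)
  · obtain ⟨a, ha⟩ := h
    rw [Finset.sum_eq_single a, if_pos ha]
    · exact hs a
    · intro b _ hb
      rw [if_neg]
      intro hb'
      rw [mem_Ico] at ha hb'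
      rcases φ.h2 b a hb with h | h <;> omega
    · exact fun h => (h (mem_univ a)).elim
  · rw [Finset.sum_eq_zero fun a _ => if_neg fun h' => h ⟨a, h'⟩, abs_zero]
    exact zero_le_one

theorem mult_zero (φ : Fam n) (s : Fin φ.m → ℝ) : mult φ s 0 = 0 :=
  Finset.sum_eq_zero fun a _ => if_neg fun h => by
    have := (φ.h1 a).1
    rw [mem_Ico] at h; omega

theorem mult_of_ge (φ : Fam n) (s : Fin φ.m → ℝ) {T₀ t : ℕ} (h : ∀ a, φ.R a ≤ T₀) (ht : T₀ ≤ t) :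
    mult φ s t = 0 :=
  Finset.sum_eq_zero fun a _ => if_neg fun h' => by
    have := h a
    rw [mem_Ico] at h'; omega

theorem var_single (e R T : ℕ) {s : ℝ} (hs : |s| ≤ 1) :
    ∑ t ∈ range T, |(if t + 1 ∈ Ico e R then s else 0) - if t ∈ Ico e R then s else 0| ≤ 2 := by
  calc _ ≤ ∑ t ∈ range T, ((if t = e - 1 then (1 : ℝ) else 0) + if t = R - 1 then 1 else 0) := by
        refine Finset.sum_le_sum fun t _ => ?_
        simp only [mem_Ico]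
        split_ifs <;> first | omega | (simp only [sub_self, sub_zero, zero_sub, abs_neg, abs_zero]; linarith)
    _ ≤ 2 := by
        rw [sum_add_distrib, Finset.sum_ite_eq', Finset.sum_ite_eq']
        split_ifs <;> norm_num

theorem mult_var (φ : Fam n) {s : Fin φ.m → ℝ} (hs : ∀ a, |s a| ≤ 1) (T : ℕ) :
    ∑ t ∈ range T, |mult φ s (t + 1) - mult φ s t| ≤ 2 * n := by
  unfold mult
  simp only [← Finset.sum_sub_distrib]
  refine (Finset.sum_le_sum fun t _ => Finset.abs_sum_le_sum_abs _ _).trans ?_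
  rw [Finset.sum_comm]
  refine (Finset.sum_le_sum fun a _ => var_single _ _ T (hs a)).trans ?_
  have : (φ.m : ℝ) ≤ n := by exact_mod_cast φ.hm
  simp only [sum_const, card_univ, Fintype.card_fin, nsmul_eq_mul]
  linarith

theorem mult_sum (φ : Fam n) (s : Fin φ.m → ℝ) {T₀ : ℕ} (h : ∀ a, φ.R a ≤ T₀) (k : ℕ → ℝ) :
    ∑ t ∈ range T₀, mult φ s t * k t = ∑ a, s a * ∑ t ∈ Ico (φ.e a) (φ.R a), k t := by
  unfold mult
  simp only [Finset.sum_mul, Finset.mul_sum, ite_mul, zero_mul]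
  rw [Finset.sum_comm]
  refine Finset.sum_congr rfl fun a _ => ?_
  rw [← Finset.sum_filter]
  refine Finset.sum_congr ?_ fun _ _ => rfl
  ext t
  have := h a
  simp only [mem_filter, mem_range, mem_Ico]
  omega

/-- `x^{3/2}` -/
noncomputable def P (x : ℝ) : ℝ := x * √x

theorem rpow_eq_P {x : ℝ} (hx : 0 ≤ x) : x ^ (3 / 2 : ℝ) = P x := by
  rw [P, Real.sqrt_eq_rpow, show (3 / 2 : ℝ) = 1 + 1 / 2 by norm_num,
    Real.rpow_add_of_nonneg hx (by norm_num) (by norm_num), Real.rpow_one]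

theorem P_nonneg {x : ℝ} (hx : 0 ≤ x) : 0 ≤ P x := mul_nonneg hx (Real.sqrt_nonneg x)

theorem P_mono {x y : ℝ} (hx : 0 ≤ x) (h : x ≤ y) : P x ≤ P y :=
  mul_le_mul h (Real.sqrt_le_sqrt h) (Real.sqrt_nonneg x) (hx.trans h)

theorem P_add {x y : ℝ} (hx : 0 ≤ x) (hy : 0 ≤ y) : P (x + y) ≤ 2 * (P x + P y) := by
  have ha := Real.sqrt_nonneg x
  have hb := Real.sqrt_nonneg y
  have ea := Real.mul_self_sqrt hx
  have eb := Real.mul_self_sqrt hy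
  have h : √(x + y) ≤ √x + √y := Real.sqrt_le_iff.2 ⟨by positivity, by nlinarith⟩
  unfold P
  refine (mul_le_mul_of_nonneg_left h (by positivity)).trans ?_
  generalize √x = a at *
  generalize √y = b at *
  subst ea eb
  have : 0 ≤ (a + b) * (a - b) ^ 2 := by positivity
  nlinarith

/-- the real kernel -/
noncomputable def kR (γ : ℝ) (f g : ℤ → ℤ → ℝ) (z : ℤ × ℤ) (t : ℕ) : ℝ :=
  f (z.1 + t) z.2 * g z.1 (z.2 + t) / ((t : ℝ) + γ)
    + f (z.1 - 1 - t) z.2 * g z.1 (z.2 - 1 - t) / (-1 - (t : ℝ) + γ)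

/-- the real count of one family -/
noncomputable def sR (γ : ℝ) (f g : ℤ → ℤ → ℝ) (φ : Fam n) (z : ℤ × ℤ) : ℝ :=
  ∑ a, |∑ t ∈ Ico (φ.e a) (φ.R a), kR γ f g z t|

theorem sR_nonneg (γ : ℝ) (f g : ℤ → ℤ → ℝ) (φ : Fam n) (z : ℤ × ℤ) : 0 ≤ sR γ f g φ z :=
  Finset.sum_nonneg fun _ _ => abs_nonneg _

theorem real_est {c γ : ℝ} (hc : 0 < c) {T₀ Λ : ℕ} {A : Finset (ℤ × ℤ)} {f g : ℤ → ℤ → ℝ}
    (hD : ∀ (d : ℤ × ℤ → ℝ) (m : ℤ × ℤ → ℕ → ℝ),
      (∀ z t, |m z t| ≤ 1) → (∀ z, m z 0 = 0) → (∀ z t, T₀ ≤ t → m z t = 0) →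
      (∀ z T, ∑ t ∈ range T, |m z (t + 1) - m z t| ≤ 2 * n) →
      |∑ z ∈ A, d z * ∑ t ∈ range T₀, m z t * kR γ f g z t|
        ≤ c * (∑ z ∈ A, |d z| ^ 3
          + ∑ i ∈ Icc (-(Λ : ℤ)) Λ, ∑ j ∈ Icc (-(Λ : ℤ)) Λ, (|f i j| ^ 3 + |g i j| ^ 3)))
    (σ : ℤ × ℤ → Fam n) (hσ : ∀ z ∈ A, ∀ a, (σ z).R a ≤ T₀) :
    ∑ z ∈ A, P (sR γ f g (σ z) z) ≤
      P (2 * c) * ∑ i ∈ Icc (-(Λ : ℤ)) Λ, ∑ j ∈ Icc (-(Λ : ℤ)) Λ, (|f i j| ^ 3 + |g i j| ^ 3) := by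
  set Y := ∑ i ∈ Icc (-(Λ : ℤ)) Λ, ∑ j ∈ Icc (-(Λ : ℤ)) Λ, (|f i j| ^ 3 + |g i j| ^ 3)
  set X := ∑ z ∈ A, P (sR γ f g (σ z) z) with hX
  let sg : ∀ z, Fin (σ z).m → ℝ := fun z a =>
    if 0 ≤ ∑ t ∈ Ico ((σ z).e a) ((σ z).R a), kR γ f g z t then 1 else -1
  have hsg : ∀ z a, |sg z a| ≤ 1 := fun z a => by
    simp only [sg]; split_ifs <;> simp
  have hw : 0 < √(2 * c) := Real.sqrt_pos.2 (by positivity)
  have hw2 : √(2 * c) * √(2 * c) = 2 * c := Real.mul_self_sqrt (by positivity)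
  have key := hD (fun z => √(sR γ f g (σ z) z) / √(2 * c))
    (fun z t => if z ∈ A then mult (σ z) (sg z) t else 0)
    (fun z t => by
      split_ifs
      · exact mult_abs_le _ (hsg z) t
      · simp)
    (fun z => by simp only [mult_zero, ite_self])
    (fun z t ht => by
      split_ifs with h
      · exact mult_of_ge _ _ (hσ z h) ht
      · rfl)
    (fun z T => by
      split_ifs
      · exact mult_var _ (hsg z) T
      · simp)
  have e1 : ∑ z ∈ A, √(sR γ f g (σ z) z) / √(2 * c) * ∑ t ∈ range T₀,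
      (if z ∈ A then mult (σ z) (sg z) t else 0) * kR γ f g z t = X / √(2 * c) := by
    rw [hX, Finset.sum_div]
    refine Finset.sum_congr rfl fun z hz => ?_
    simp only [if_pos hz]
    rw [mult_sum _ _ (hσ z hz)]
    have : ∑ a, sg z a * ∑ t ∈ Ico ((σ z).e a) ((σ z).R a), kR γ f g z t = sR γ f g (σ z) z := by
      refine Finset.sum_congr rfl fun a _ => ?_
      simp only [sg]
      split_ifs with h
      · rw [one_mul, abs_of_nonneg h]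
      · rw [neg_one_mul, abs_of_neg (not_le.1 h)]
    rw [this, P]; ring
  have e2 : ∑ z ∈ A, |√(sR γ f g (σ z) z) / √(2 * c)| ^ 3 = X / √(2 * c) ^ 3 := by
    rw [hX, Finset.sum_div]
    refine Finset.sum_congr rfl fun z _ => ?_
    rw [abs_of_nonneg (by positivity), div_pow, P, pow_succ, Real.sq_sqrt (sR_nonneg _ _ _ _ _)]
  rw [e1, e2] at key
  have key' := (le_abs_self _).trans key
  unfold P
  generalize √(2 * c) = w at *
  have hc' : c = w * w / 2 := by linarith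
  rw [hc'] at key' ⊢
  have e3 : w * w / 2 * (X / w ^ 3 + Y) = (X / 2 + w ^ 3 / 2 * Y) / w := by
    field_simp
  rw [e3, div_le_div_iff_of_pos_right hw] at key'
  nlinarith

theorem norm_beta_le (γ : ℝ) (f g : ℤ → ℤ → ℂ) (e R : ℕ) (z : ℤ × ℤ) :
    ‖beta γ f g e R z.1 z.2‖ ≤
      (|∑ t ∈ Ico e R, kR γ (fun i j => (f i j).re) (fun i j => (g i j).re) z t|
        + |∑ t ∈ Ico e R, kR γ (fun i j => (f i j).im) (fun i j => (g i j).im) z t|)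
      + (|∑ t ∈ Ico e R, kR γ (fun i j => (f i j).re) (fun i j => (g i j).im) z t|
        + |∑ t ∈ Ico e R, kR γ (fun i j => (f i j).im) (fun i j => (g i j).re) z t|) := by
  refine (Complex.norm_le_abs_re_add_abs_im _).trans (add_le_add ?_ ?_)
  · refine le_of_eq_of_le (congrArg _ ?_) (abs_sub _ _)
    rw [beta, Complex.re_sum, ← Finset.sum_sub_distrib]
    refine Finset.sum_congr rfl fun t _ => ?_
    simp only [Complex.add_re, Complex.div_ofReal_re, Complex.mul_re, kR]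
    ring
  · refine le_of_eq_of_le (congrArg _ ?_) (abs_add_le _ _)
    rw [beta, Complex.im_sum, ← Finset.sum_add_distrib]
    refine Finset.sum_congr rfl fun t _ => ?_
    simp only [Complex.add_im, Complex.div_ofReal_im, Complex.mul_im, kR]
    ring

theorem complex_est {c γ : ℝ} (hc : 0 < c) {T₀ Λ : ℕ} {A : Finset (ℤ × ℤ)}
    (hD : ∀ (d : ℤ × ℤ → ℝ) (f g : ℤ → ℤ → ℝ) (m : ℤ × ℤ → ℕ → ℝ),
      (∀ z t, |m z t| ≤ 1) → (∀ z, m z 0 = 0) → (∀ z t, T₀ ≤ t → m z t = 0) →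
      (∀ z T, ∑ t ∈ range T, |m z (t + 1) - m z t| ≤ 2 * n) →
      |∑ z ∈ A, d z * ∑ t ∈ range T₀, m z t * kR γ f g z t|
        ≤ c * (∑ z ∈ A, |d z| ^ 3
          + ∑ i ∈ Icc (-(Λ : ℤ)) Λ, ∑ j ∈ Icc (-(Λ : ℤ)) Λ, (|f i j| ^ 3 + |g i j| ^ 3)))
    (σ : ℤ × ℤ → Fam n) (hσ : ∀ z ∈ A, ∀ a, (σ z).R a ≤ T₀) (f g : ℤ → ℤ → ℂ) :
    ∑ z ∈ A, P (∑ a, ‖beta γ f g ((σ z).e a) ((σ z).R a) z.1 z.2‖) ≤
      P (32 * c) * ∑ i ∈ Icc (-(Λ : ℤ)) Λ, ∑ j ∈ Icc (-(Λ : ℤ)) Λ, (‖f i j‖ ^ 3 + ‖g i j‖ ^ 3) := by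
  set Y := ∑ i ∈ Icc (-(Λ : ℤ)) Λ, ∑ j ∈ Icc (-(Λ : ℤ)) Λ, (‖f i j‖ ^ 3 + ‖g i j‖ ^ 3) with hY
  have hY0 : 0 ≤ Y := by positivity
  have hP : 0 ≤ P (2 * c) := P_nonneg (by positivity)
  have h4 : ∀ f' g' : ℤ → ℤ → ℝ, (∀ i j, |f' i j| ≤ ‖f i j‖) → (∀ i j, |g' i j| ≤ ‖g i j‖) →
      ∑ z ∈ A, P (sR γ f' g' (σ z) z) ≤ P (2 * c) * Y := by
    intro f' g' hf hg
    refine (real_est hc (fun d m => hD d f' g' m) σ hσ).trans (mul_le_mul_of_nonneg_left ?_ hP)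
    refine Finset.sum_le_sum fun i _ => Finset.sum_le_sum fun j _ => ?_
    have := hf i j
    have := hg i j
    gcongr
  have a1 := h4 _ _ (fun i j => Complex.abs_re_le_norm (f i j)) fun i j =>
    Complex.abs_re_le_norm (g i j)
  have a2 := h4 _ _ (fun i j => Complex.abs_im_le_norm (f i j)) fun i j =>
    Complex.abs_im_le_norm (g i j)
  have a3 := h4 _ _ (fun i j => Complex.abs_re_le_norm (f i j)) fun i j =>
    Complex.abs_im_le_norm (g i j)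
  have a4 := h4 _ _ (fun i j => Complex.abs_im_le_norm (f i j)) fun i j =>
    Complex.abs_re_le_norm (g i j)
  have e : P (32 * c) = 64 * P (2 * c) := by
    unfold P
    rw [show 32 * c = 4 ^ 2 * (2 * c) by ring, Real.sqrt_mul (by positivity),
      Real.sqrt_sq (by norm_num)]
    ring
  calc _ ≤ ∑ z ∈ A, 4 * (P (sR γ (fun i j => (f i j).re) (fun i j => (g i j).re) (σ z) z)
          + P (sR γ (fun i j => (f i j).im) (fun i j => (g i j).im) (σ z) z)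
          + P (sR γ (fun i j => (f i j).re) (fun i j => (g i j).im) (σ z) z)
          + P (sR γ (fun i j => (f i j).im) (fun i j => (g i j).re) (σ z) z)) := by
        refine Finset.sum_le_sum fun z _ => ?_
        have b := Finset.sum_le_sum (s := univ) fun a _ =>
          norm_beta_le γ f g ((σ z).e a) ((σ z).R a) z
        simp only [sum_add_distrib] at b
        have n1 := sR_nonneg γ (fun i j => (f i j).re) (fun i j => (g i j).re) (σ z) z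
        have n2 := sR_nonneg γ (fun i j => (f i j).im) (fun i j => (g i j).im) (σ z) z
        have n3 := sR_nonneg γ (fun i j => (f i j).re) (fun i j => (g i j).im) (σ z) z
        have n4 := sR_nonneg γ (fun i j => (f i j).im) (fun i j => (g i j).re) (σ z) z
        refine (P_mono (by positivity) b).trans
          ((P_add (add_nonneg n1 n2) (add_nonneg n3 n4)).trans ?_)
        have := P_add n1 n2
        have := P_add n3 n4
        linarith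
    _ ≤ P (32 * c) * Y := by
        rw [← Finset.mul_sum]
        simp only [sum_add_distrib]
        have := mul_nonneg hP hY0
        rw [e]
        linarith

theorem sum_iSup_le {α β : Type*} [Nonempty β] (A : Finset α) (y : α → β → ℝ≥0∞) {c : ℝ≥0∞}
    (h : ∀ σ : α → β, ∑ z ∈ A, y z (σ z) ≤ c) : ∑ z ∈ A, ⨆ b, y z b ≤ c := by
  classical
  calc _ ≤ ∑ z ∈ A, ⨆ σ : α → β, y z (σ z) :=
        Finset.sum_le_sum fun z _ => iSup_le fun b =>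
          le_iSup (fun σ : α → β => y z (σ z)) fun _ => b
    _ = ⨆ σ : α → β, ∑ z ∈ A, y z (σ z) := by
        refine ENNReal.finsetSum_iSup fun σ σ' => ?_
        refine ⟨fun a => if y a (σ a) ≤ y a (σ' a) then σ' a else σ a, fun a => ?_⟩
        dsimp only
        split_ifs with h
        · exact ⟨h, le_rfl⟩
        · exact ⟨le_rfl, (not_le.1 h).le⟩
    _ ≤ c := iSup_le h

instance : Nonempty (Fam n) :=
  ⟨⟨0, Nat.zero_le n, Fin.elim0, Fin.elim0, fun a => a.elim0, fun a => a.elim0⟩⟩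

theorem discCount_rpow_le (γ : ℝ) (f g : ℤ → ℤ → ℂ) (z : ℤ × ℤ) :
    discCount n γ f g z.1 z.2 ^ (3 / 2 : ℝ) ≤
      ⨆ φ : Fam n, ENNReal.ofReal (P (∑ a, ‖beta γ f g (φ.e a) (φ.R a) z.1 z.2‖)) := by
  have h : discCount n γ f g z.1 z.2 ≤
      ⨆ φ : Fam n, ∑ a, ‖beta γ f g (φ.e a) (φ.R a) z.1 z.2‖ₑ :=
    iSup_le fun m => iSup_le fun hm => iSup_le fun e => iSup_le fun R => iSup_le fun h1 =>
      iSup_le fun h2 => le_iSup (fun φ : Fam n => ∑ a, ‖beta γ f g (φ.e a) (φ.R a) z.1 z.2‖ₑ)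
        ⟨m, hm, e, R, h1, h2⟩
  refine (ENNReal.rpow_le_rpow h (by norm_num)).trans (le_of_eq ?_)
  refine ((ENNReal.orderIsoRpow (3 / 2) (by norm_num)).map_iSup _).trans (iSup_congr fun φ => ?_)
  change (∑ a, ‖beta γ f g (φ.e a) (φ.R a) z.1 z.2‖ₑ) ^ (3 / 2 : ℝ) = _
  rw [← rpow_eq_P (by positivity), ← ENNReal.ofReal_rpow_of_nonneg (by positivity) (by norm_num),
    ENNReal.ofReal_sum_of_nonneg fun _ _ => norm_nonneg _]
  simp only [ofReal_norm]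

end DiscZ

open DiscZ

/-- Real dual form on `ℤ²`.  Let `B = Icc (-Λ) Λ` contain all coordinates `i, j, i ± t, j ± t, …` that occur.
Choose `K` with `2^K > 2 Λ + 2` and transport to `ZMod (2^K)` by `ZMod.valMinAbs`:
`u = -i`, `v = -j`, `D u v = d (i, j)` on `A` and `0` off `A`, `b v w = f (w + v) (-v)`, `c w u = g (-u) (w + u)`
(values of `f, g` outside `B × B` replaced by `0`); then `discT` is the case `γ = ½`.  The change from `½` to `γ` costs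
`|1/(t+γ) - 1/(t+½)|, |1/(-1-t+γ) + 1/(t+½)| ≤ 1/(2t²)` for `t ≥ 1` and AM-GM
`|d f g| ≤ (|d|³+|f|³+|g|³)/3` gives an absolute constant. -/
theorem discZ_dual : ∃ C : ℝ, 0 ≤ C ∧ ∀ (n T₀ Λ : ℕ) (γ : ℝ), 1 ≤ n → 0 ≤ γ → γ ≤ 1 →
    ∀ (A : Finset (ℤ × ℤ)) (d : ℤ × ℤ → ℝ) (f g : ℤ → ℤ → ℝ) (m : ℤ × ℤ → ℕ → ℝ),
      (∀ z ∈ A, |z.1| + T₀ ≤ Λ ∧ |z.2| + T₀ ≤ Λ) →
      (∀ z t, |m z t| ≤ 1) → (∀ z, m z 0 = 0) → (∀ z t, T₀ ≤ t → m z t = 0) →
      (∀ z T, ∑ t ∈ range T, |m z (t + 1) - m z t| ≤ 2 * n) →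
      |∑ z ∈ A, d z * ∑ t ∈ range T₀, m z t *
          (f (z.1 + t) z.2 * g z.1 (z.2 + t) / ((t : ℝ) + γ)
            + f (z.1 - 1 - t) z.2 * g z.1 (z.2 - 1 - t) / (-1 - (t : ℝ) + γ))|
        ≤ C * √n * (∑ z ∈ A, |d z| ^ 3
          + ∑ i ∈ Icc (-(Λ : ℤ)) Λ, ∑ j ∈ Icc (-(Λ : ℤ)) Λ, (|f i j| ^ 3 + |g i j| ^ 3)) := by
  obtain ⟨C, hC, hT⟩ := discT
  refine ⟨C + 2, by positivity, ?_⟩
  intro n T₀ Λ γ hn h0 h1 A d f g m hA hm1 hm0 hm2 hm3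
  have k1 := half_gen n T₀ Λ (hT (Λ + 1) n T₀ hn) ZMod.valMinAbs ZMod.coe_valMinAbs
    (valMinAbs_eq Λ) A d f g m hA hm1 hm2 hm3
  have k2 := phase_err T₀ Λ h0 h1 A d f g m hA hm1 hm0
  have e : ∑ i ∈ Icc (-(Λ : ℤ)) Λ, ∑ j ∈ Icc (-(Λ : ℤ)) Λ, (|f i j| ^ 3 + |g i j| ^ 3)
      = ∑ z ∈ Icc (-(Λ : ℤ)) Λ ×ˢ Icc (-(Λ : ℤ)) Λ, |f z.1 z.2| ^ 3
        + ∑ z ∈ Icc (-(Λ : ℤ)) Λ ×ˢ Icc (-(Λ : ℤ)) Λ, |g z.1 z.2| ^ 3 := by
    rw [← sum_add_distrib, sum_product]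
  rw [e, ← add_assoc]
  have hs : (1 : ℝ) ≤ √n := Real.one_le_sqrt.2 (by exact_mod_cast hn)
  have hS : 0 ≤ ∑ z ∈ A, |d z| ^ 3
      + ∑ z ∈ Icc (-(Λ : ℤ)) Λ ×ˢ Icc (-(Λ : ℤ)) Λ, |f z.1 z.2| ^ 3
      + ∑ z ∈ Icc (-(Λ : ℤ)) Λ ×ˢ Icc (-(Λ : ℤ)) Λ, |g z.1 z.2| ^ 3 := by positivity
  have k3 := mul_le_mul_of_nonneg_right hs hS
  rw [abs_le] at k1 k2 ⊢
  constructor <;> nlinarith [k1.1, k1.2, k2.1, k2.2]

/-- It suffices to bound `∑_{z ∈ A} s(z)^{3/2}` for a finite `A` and an arbitrary choice of one admissible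
family of annuli at each `z`, `s(z) = ∑_a ‖beta (e a) (R a) z‖` (`ENNReal.tsum_eq_iSup_sum`; `(⨆ ·)^{3/2}`
commutes with `⨆`, and a finite sum of suprema is the supremum over selections).  Split `f, g` into real and
imaginary parts: `s ≤ ∑` of four real `s'(z) = ∑_a |β_a| = ∑_t m z t (…)` with
`m z = ∑_a sign(β_a) 1_{[e a, R a)}` (`|m| ≤ 1` by disjointness, variation `≤ 2n`).  Test `discZ_dual`
with `d = θ √s'`, `θ² = 1/(2 C √n)` (if `C > 0`): `∑ s'^{3/2} ≤ 2√2 (C √n)^{3/2} (∑|f|³ + ∑|g|³)`. -/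
theorem discZ : ∃ C : ℝ, 0 ≤ C ∧ ∀ (n : ℕ) (γ : ℝ), 1 ≤ n → 0 ≤ γ → γ ≤ 1 →
    ∀ f g : ℤ → ℤ → ℂ,
      ∑' z : ℤ × ℤ, discCount n γ f g z.1 z.2 ^ (3 / 2 : ℝ) ≤
        ENNReal.ofReal ((C * √n) ^ (3 / 2 : ℝ)) *
          (∑' z : ℤ × ℤ, ‖f z.1 z.2‖ₑ ^ 3 + ∑' z : ℤ × ℤ, ‖g z.1 z.2‖ₑ ^ 3) := by
  obtain ⟨C, hC, hD⟩ := discZ_dual
  refine ⟨32 * (C + 1), by positivity, ?_⟩
  intro n γ hn h0 h1 f g
  have hs : (1 : ℝ) ≤ √n := Real.one_le_sqrt.2 (by exact_mod_cast hn)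
  have hc : 0 < (C + 1) * √n := by positivity
  rw [ENNReal.tsum_eq_iSup_sum]
  refine iSup_le fun A => (Finset.sum_le_sum fun z _ => discCount_rpow_le γ f g z).trans
    (sum_iSup_le A _ fun σ => ?_)
  let T₀ : ℕ := A.sup fun z => univ.sup (σ z).R
  let Λ : ℕ := A.sup (fun z => z.1.natAbs + z.2.natAbs) + T₀
  have hσ : ∀ z ∈ A, ∀ a, (σ z).R a ≤ T₀ := fun z hz a =>
    (le_sup (f := (σ z).R) (mem_univ a)).trans (le_sup (f := fun z => univ.sup (σ z).R) hz)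
  have hA : ∀ z ∈ A, |z.1| + T₀ ≤ Λ ∧ |z.2| + T₀ ≤ Λ := fun z hz => by
    have := le_sup (f := fun z : ℤ × ℤ => z.1.natAbs + z.2.natAbs) hz
    rw [← Int.natCast_natAbs, ← Int.natCast_natAbs]
    simp only [Λ]
    constructor <;> omega
  have key := complex_est (γ := γ) (T₀ := T₀) (Λ := Λ) (A := A) hc (fun d f g m a1 a2 a3 a4 => by
    refine (hD n T₀ Λ γ hn h0 h1 A d f g m hA a1 a2 a3 a4).trans ?_
    gcongr
    linarith) σ hσ f g
  rw [← ENNReal.ofReal_sum_of_nonneg fun _ _ => P_nonneg (by positivity)]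
  refine (ENNReal.ofReal_le_ofReal key).trans ?_
  rw [ENNReal.ofReal_mul (P_nonneg (by positivity)), mul_assoc, rpow_eq_P (by positivity)]
  gcongr
  rw [← sum_product' (f := fun i j => ‖f i j‖ ^ 3 + ‖g i j‖ ^ 3), sum_add_distrib,
    ENNReal.ofReal_add (by positivity) (by positivity),
    ENNReal.ofReal_sum_of_nonneg fun _ _ => by positivity,
    ENNReal.ofReal_sum_of_nonneg fun _ _ => by positivity]
  simp only [ENNReal.ofReal_pow (norm_nonneg _), ofReal_norm]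
  exact add_le_add (ENNReal.sum_le_tsum _) (ENNReal.sum_le_tsum _)

end Crest.Agent.R72
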