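import Crest.Agent.R72.DiscT

/-! # R72 task DiscZ, first half: transport of the dual estimate from `ZMod (2^K)` to `ℤ²` -/

set_option autoImplicit false

namespace Crest.Agent.R72.DiscZ

open Matrix Finset

theorem sum_transport {G α : Type*} [Fintype G] [DecidableEq α] {ψ : G → α}
    (hψ : Function.Injective ψ) {S : Finset α} (hS : ∀ z ∈ S, ∃ a, ψ a = z) (h : α → ℝ) :
    ∑ a, (if ψ a ∈ S then h (ψ a) else 0) = ∑ z ∈ S, h z := by
  rw [← Finset.sum_filter]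
  refine Finset.sum_bij (fun a _ => ψ a) (fun a ha => (mem_filter.1 ha).2)
    (fun a _ b _ h => hψ h) ?_ (fun _ _ => rfl)
  intro z hz
  obtain ⟨a, rfl⟩ := hS z hz
  exact ⟨a, mem_filter.2 ⟨mem_univ _, hz⟩, rfl⟩

/-- transported matrix -/
def tr {G : Type*} (ψ : G × G → ℤ × ℤ) (S : Finset (ℤ × ℤ)) (h : ℤ × ℤ → ℝ) : Matrix G G ℝ :=
  Matrix.of fun u v => if ψ (u, v) ∈ S then h (ψ (u, v)) else 0

theorem tr_apply {G : Type*} {ψ : G × G → ℤ × ℤ} {S : Finset (ℤ × ℤ)} (h : ℤ × ℤ → ℝ) {u v : G}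
    {z : ℤ × ℤ} (e : ψ (u, v) = z) (hz : z ∈ S) : tr ψ S h u v = h z := by
  simp only [tr, Matrix.of_apply, e, if_pos hz]

theorem cub_tr {G : Type*} [Fintype G] {ψ : G × G → ℤ × ℤ} (hψ : Function.Injective ψ)
    {S : Finset (ℤ × ℤ)} (hS : ∀ z ∈ S, ∃ a, ψ a = z) (h : ℤ × ℤ → ℝ) :
    cub (tr ψ S h) = ∑ z ∈ S, |h z| ^ 3 := by
  rw [← sum_transport hψ hS (fun z => |h z| ^ 3), cub, ← Fintype.sum_prod_type']
  refine Finset.sum_congr rfl fun p _ => ?_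
  simp only [tr, Matrix.of_apply]
  split_ifs <;> simp

theorem half_gen {G : Type*} [CommRing G] [Fintype G] {C : ℝ} (n T₀ Λ : ℕ)
    (hT : ∀ (d b c : Matrix G G ℝ) (m : G → G → ℕ → ℝ),
      (∀ u v t, |m u v t| ≤ 1) → (∀ u v t, T₀ ≤ t → m u v t = 0) →
      (∀ u v T, ∑ t ∈ range T, |m u v (t + 1) - m u v t| ≤ 2 * n) →
      |∑ u, ∑ v, d u v * ∑ t ∈ range T₀, m u v t / ((t : ℝ) + 1 / 2) *
          (b v ((t : G) - u - v) * c ((t : G) - u - v) u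
            - b v (-1 - (t : G) - u - v) * c (-1 - (t : G) - u - v) u)|
        ≤ C * √n * (cub d + cub b + cub c))
    (ψ : G → ℤ) (hψc : ∀ a : G, ((ψ a : ℤ) : G) = a)
    (hval : ∀ (a : G) (x : ℤ), -(Λ : ℤ) ≤ x → x ≤ Λ → a = x → ψ a = x)
    (A : Finset (ℤ × ℤ)) (d : ℤ × ℤ → ℝ) (f g : ℤ → ℤ → ℝ) (m : ℤ × ℤ → ℕ → ℝ)
    (hA : ∀ z ∈ A, |z.1| + T₀ ≤ Λ ∧ |z.2| + T₀ ≤ Λ)
    (hm1 : ∀ z t, |m z t| ≤ 1) (hm2 : ∀ z t, T₀ ≤ t → m z t = 0)
    (hm3 : ∀ z T, ∑ t ∈ range T, |m z (t + 1) - m z t| ≤ 2 * n) :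
    |∑ z ∈ A, d z * ∑ t ∈ range T₀, m z t / ((t : ℝ) + 1 / 2) *
        (f (z.1 + t) z.2 * g z.1 (z.2 + t) - f (z.1 - 1 - t) z.2 * g z.1 (z.2 - 1 - t))|
      ≤ C * √n * (∑ z ∈ A, |d z| ^ 3
        + ∑ z ∈ Icc (-(Λ : ℤ)) Λ ×ˢ Icc (-(Λ : ℤ)) Λ, |f z.1 z.2| ^ 3
        + ∑ z ∈ Icc (-(Λ : ℤ)) Λ ×ˢ Icc (-(Λ : ℤ)) Λ, |g z.1 z.2| ^ 3) := by
  set BB := Icc (-(Λ : ℤ)) Λ ×ˢ Icc (-(Λ : ℤ)) Λ with hBB
  have hψ : Function.Injective ψ := Function.LeftInverse.injective hψc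
  let ψ1 : G × G → ℤ × ℤ := fun p => (ψ (-p.1), ψ (-p.2))
  let ψ2 : G × G → ℤ × ℤ := fun p => (ψ (p.2 + p.1), ψ (-p.1))
  let ψ3 : G × G → ℤ × ℤ := fun p => (ψ (-p.2), ψ (p.1 + p.2))
  have i1 : Function.Injective ψ1 := by
    rintro ⟨a, b⟩ ⟨a', b'⟩ h
    simp only [ψ1, Prod.mk.injEq, hψ.eq_iff, neg_inj] at h
    exact Prod.ext h.1 h.2
  have i2 : Function.Injective ψ2 := by
    rintro ⟨a, b⟩ ⟨a', b'⟩ h
    simp only [ψ2, Prod.mk.injEq, hψ.eq_iff, neg_inj] at h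
    obtain ⟨h1, rfl⟩ := h
    exact Prod.ext rfl (add_right_cancel h1)
  have i3 : Function.Injective ψ3 := by
    rintro ⟨a, b⟩ ⟨a', b'⟩ h
    simp only [ψ3, Prod.mk.injEq, hψ.eq_iff, neg_inj] at h
    obtain ⟨rfl, h1⟩ := h
    exact Prod.ext (add_right_cancel h1) rfl
  have hmem : ∀ z : ℤ × ℤ, z ∈ BB ↔ (-(Λ : ℤ) ≤ z.1 ∧ z.1 ≤ Λ) ∧ -(Λ : ℤ) ≤ z.2 ∧ z.2 ≤ Λ := by
    intro z; simp only [hBB, mem_product, mem_Icc]
  have hA' : ∀ z ∈ A, (-(Λ : ℤ) + T₀ ≤ z.1 ∧ z.1 + T₀ ≤ Λ) ∧ -(Λ : ℤ) + T₀ ≤ z.2 ∧ z.2 + T₀ ≤ Λ := by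
    intro z hz
    obtain ⟨h1, h2⟩ := hA z hz
    have := le_abs_self z.1
    have := neg_abs_le z.1
    have := le_abs_self z.2
    have := neg_abs_le z.2
    omega
  have s1 : ∀ z ∈ A, ∃ a, ψ1 a = z := by
    intro z hz
    obtain ⟨h1, h2⟩ := hA' z hz
    refine ⟨(-(z.1 : G), -(z.2 : G)), Prod.ext ?_ ?_⟩
    · exact hval _ _ (by omega) (by omega) (by simp)
    · exact hval _ _ (by omega) (by omega) (by simp)
  have s2 : ∀ z ∈ BB, ∃ a, ψ2 a = z := by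
    intro z hz
    obtain ⟨h1, h2⟩ := (hmem z).1 hz
    refine ⟨(-(z.2 : G), (z.1 : G) + z.2), Prod.ext ?_ ?_⟩
    · exact hval _ _ h1.1 h1.2 (by simp)
    · exact hval _ _ h2.1 h2.2 (by simp)
  have s3 : ∀ z ∈ BB, ∃ a, ψ3 a = z := by
    intro z hz
    obtain ⟨h1, h2⟩ := (hmem z).1 hz
    refine ⟨((z.1 : G) + z.2, -(z.1 : G)), Prod.ext ?_ ?_⟩
    · exact hval _ _ h1.1 h1.2 (by simp)
    · exact hval _ _ h2.1 h2.2 (by simp)
  have key := hT (tr ψ1 A d) (tr ψ2 BB fun z => f z.1 z.2)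
    (tr ψ3 BB fun z => g z.1 z.2) (fun u v t => m (ψ1 (u, v)) t) (fun _ _ _ => hm1 _ _)
    (fun _ _ _ => hm2 _ _) (fun _ _ _ => hm3 _ _)
  rw [cub_tr i1 s1, cub_tr i2 s2, cub_tr i3 s3] at key
  refine le_of_eq_of_le (congrArg _ ?_) key
  rw [← sum_transport i1 s1, ← Fintype.sum_prod_type']
  refine Finset.sum_congr rfl fun p _ => ?_
  obtain ⟨u, v⟩ := p
  by_cases hp : ψ1 (u, v) ∈ A
  · rw [if_pos hp, tr_apply d rfl hp]
    obtain ⟨h1, h2⟩ := hA' _ hp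
    generalize hz : ψ1 (u, v) = z at *
    have hu : u = -(z.1 : G) := by
      rw [← hz]; simp only [ψ1, hψc, neg_neg]
    have hv : v = -(z.2 : G) := by
      rw [← hz]; simp only [ψ1, hψc, neg_neg]
    congr 1
    refine Finset.sum_congr rfl fun t ht => ?_
    have ht' : (t : ℤ) < T₀ := by exact_mod_cast mem_range.1 ht
    have ht0 : (0 : ℤ) ≤ t := Int.natCast_nonneg t
    rw [tr_apply (ψ := ψ2) (u := v) (v := (t : G) - u - v) (z := (z.1 + t, z.2)) _ (Prod.ext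
        (hval _ _ (by omega) (by omega) (by rw [hu]; push_cast; ring))
        (hval _ _ (by omega) (by omega) (by rw [hv]; simp))) ((hmem _).2 (by dsimp only; omega)),
      tr_apply (ψ := ψ3) (u := (t : G) - u - v) (v := u) (z := (z.1, z.2 + t)) _ (Prod.ext
        (hval _ _ (by omega) (by omega) (by rw [hu]; simp))
        (hval _ _ (by omega) (by omega) (by rw [hv]; push_cast; ring)))
        ((hmem _).2 (by dsimp only; omega)),
      tr_apply (ψ := ψ2) (u := v) (v := -1 - (t : G) - u - v) (z := (z.1 - 1 - t, z.2)) _ (Prod.ext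
        (hval _ _ (by omega) (by omega) (by rw [hu]; push_cast; ring))
        (hval _ _ (by omega) (by omega) (by rw [hv]; simp))) ((hmem _).2 (by dsimp only; omega)),
      tr_apply (ψ := ψ3) (u := -1 - (t : G) - u - v) (v := u) (z := (z.1, z.2 - 1 - t)) _ (Prod.ext
        (hval _ _ (by omega) (by omega) (by rw [hu]; simp))
        (hval _ _ (by omega) (by omega) (by rw [hv]; push_cast; ring)))
        ((hmem _).2 (by dsimp only; omega))]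
  · rw [if_neg hp]
    simp only [tr, Matrix.of_apply, if_neg hp, zero_mul]

theorem valMinAbs_eq (Λ : ℕ) (a : ZMod (2 ^ (Λ + 1))) (x : ℤ) (h1 : -(Λ : ℤ) ≤ x) (h2 : x ≤ Λ)
    (e : a = x) : a.valMinAbs = x := by
  have : (Λ : ℤ) < 2 ^ Λ := by exact_mod_cast Nat.lt_two_pow_self
  refine (ZMod.valMinAbs_spec a x).2 ⟨e, ?_, ?_⟩
  · push_cast; rw [pow_succ]; omega
  · push_cast; rw [pow_succ]; omega

/-- telescoping weights -/
noncomputable def wgt (t : ℕ) : ℝ := 2 / (((t : ℝ) + 1) * (t + 2))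

theorem wgt_nonneg (t : ℕ) : 0 ≤ wgt t := by unfold wgt; positivity

theorem sum_wgt (T : ℕ) : ∑ t ∈ range T, wgt t = 2 - 2 / ((T : ℝ) + 1) := by
  induction T with
  | zero => simp
  | succ T ih =>
    rw [sum_range_succ, ih, wgt]
    push_cast
    field_simp
    ring

theorem sum_wgt_le (T : ℕ) : ∑ t ∈ range T, wgt t ≤ 2 := by
  rw [sum_wgt]
  have : 0 ≤ 2 / ((T : ℝ) + 1) := by positivity
  linarith

theorem ker_diff {t a : ℝ} (ht : 1 ≤ t) (ha : t ≤ a) (ha' : a ≤ t + 1) :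
    |1 / a - 1 / (t + 1 / 2)| ≤ 2 / ((t + 1) * (t + 2)) := by
  have h0 : 0 < a := by linarith
  have e : 1 / a - 1 / (t + 1 / 2) = (t + 1 / 2 - a) / (a * (t + 1 / 2)) := by
    field_simp
  rw [e, abs_div, abs_of_pos (show 0 < a * (t + 1 / 2) by positivity),
    div_le_div_iff₀ (by positivity) (by positivity)]
  have h1 : |t + 1 / 2 - a| ≤ 1 / 2 := abs_le.2 ⟨by linarith, by linarith⟩
  have h2 : (t + 1) * (t + 2) ≤ 4 * (a * (t + 1 / 2)) := by nlinarith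
  have h3 : 0 ≤ (t + 1) * (t + 2) := by positivity
  nlinarith

theorem amgm3 (x y z : ℝ) : |x * y * z| ≤ (|x| ^ 3 + |y| ^ 3 + |z| ^ 3) / 3 := by
  rw [abs_mul, abs_mul]
  have hx := abs_nonneg x
  have hy := abs_nonneg y
  have hz := abs_nonneg z
  generalize |x| = a at *
  generalize |y| = b at *
  generalize |z| = c at *
  have : 0 ≤ (a + b + c) * ((a - b) ^ 2 + (b - c) ^ 2 + (c - a) ^ 2) := by positivity
  nlinarith

theorem sum_shift_le {A B : Finset (ℤ × ℤ)} {σ : ℤ × ℤ → ℤ × ℤ} (hσ : Function.Injective σ)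
    (h : ∀ z ∈ A, σ z ∈ B) (F : ℤ × ℤ → ℝ) :
    ∑ z ∈ A, |F (σ z)| ^ 3 ≤ ∑ z ∈ B, |F z| ^ 3 := by
  rw [← Finset.sum_image (s := A) (g := σ) (f := fun z => |F z| ^ 3) hσ.injOn]
  refine Finset.sum_le_sum_of_subset_of_nonneg ?_ fun _ _ _ => by positivity
  intro w hw
  obtain ⟨z, hz, rfl⟩ := mem_image.1 hw
  exact h z hz

/-- the change of phase costs an absolute constant -/
theorem phase_err (T₀ Λ : ℕ) {γ : ℝ} (h0 : 0 ≤ γ) (h1 : γ ≤ 1)
    (A : Finset (ℤ × ℤ)) (d : ℤ × ℤ → ℝ) (f g : ℤ → ℤ → ℝ) (m : ℤ × ℤ → ℕ → ℝ)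
    (hA : ∀ z ∈ A, |z.1| + T₀ ≤ Λ ∧ |z.2| + T₀ ≤ Λ)
    (hm1 : ∀ z t, |m z t| ≤ 1) (hm0 : ∀ z, m z 0 = 0) :
    |∑ z ∈ A, d z * ∑ t ∈ range T₀, m z t *
          (f (z.1 + t) z.2 * g z.1 (z.2 + t) / ((t : ℝ) + γ)
            + f (z.1 - 1 - t) z.2 * g z.1 (z.2 - 1 - t) / (-1 - (t : ℝ) + γ))
      - ∑ z ∈ A, d z * ∑ t ∈ range T₀, m z t / ((t : ℝ) + 1 / 2) *
        (f (z.1 + t) z.2 * g z.1 (z.2 + t) - f (z.1 - 1 - t) z.2 * g z.1 (z.2 - 1 - t))|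
      ≤ 2 * (∑ z ∈ A, |d z| ^ 3
        + ∑ z ∈ Icc (-(Λ : ℤ)) Λ ×ˢ Icc (-(Λ : ℤ)) Λ, |f z.1 z.2| ^ 3
        + ∑ z ∈ Icc (-(Λ : ℤ)) Λ ×ˢ Icc (-(Λ : ℤ)) Λ, |g z.1 z.2| ^ 3) := by
  set BB := Icc (-(Λ : ℤ)) Λ ×ˢ Icc (-(Λ : ℤ)) Λ with hBB
  set S := ∑ z ∈ A, |d z| ^ 3 + ∑ z ∈ BB, |f z.1 z.2| ^ 3 + ∑ z ∈ BB, |g z.1 z.2| ^ 3 with hS
  have hS0 : 0 ≤ S := by positivity
  have hmem : ∀ z : ℤ × ℤ, z ∈ BB ↔ (-(Λ : ℤ) ≤ z.1 ∧ z.1 ≤ Λ) ∧ -(Λ : ℤ) ≤ z.2 ∧ z.2 ≤ Λ := by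
    intro z; simp only [hBB, mem_product, mem_Icc]
  have hA' : ∀ z ∈ A, (-(Λ : ℤ) + T₀ ≤ z.1 ∧ z.1 + T₀ ≤ Λ) ∧ -(Λ : ℤ) + T₀ ≤ z.2 ∧ z.2 + T₀ ≤ Λ := by
    intro z hz
    obtain ⟨h1, h2⟩ := hA z hz
    have := le_abs_self z.1
    have := neg_abs_le z.1
    have := le_abs_self z.2
    have := neg_abs_le z.2
    omega
  have hsh : ∀ s : ℤ, -(T₀ : ℤ) ≤ s → s ≤ T₀ →
      ∑ z ∈ A, |d z * f (z.1 + s) z.2 * g z.1 (z.2 + s)| ≤ S / 3 := by
    intro s hs1 hs2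
    refine (Finset.sum_le_sum fun z _ => amgm3 _ _ _).trans ?_
    rw [← Finset.sum_div, sum_add_distrib, sum_add_distrib, hS]
    have e1 := sum_shift_le (A := A) (B := BB) (σ := fun z => (z.1 + s, z.2))
      (fun z z' h => by
        simp only [Prod.mk.injEq, add_left_inj] at h
        exact Prod.ext h.1 h.2)
      (fun z hz => (hmem _).2 (by have := hA' z hz; dsimp only; omega)) (fun z => f z.1 z.2)
    have e2 := sum_shift_le (A := A) (B := BB) (σ := fun z => (z.1, z.2 + s))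
      (fun z z' h => by
        simp only [Prod.mk.injEq, add_left_inj] at h
        exact Prod.ext h.1 h.2)
      (fun z hz => (hmem _).2 (by have := hA' z hz; dsimp only; omega)) (fun z => g z.1 z.2)
    dsimp only at e1 e2
    linarith
  rw [← Finset.sum_sub_distrib]
  simp only [Finset.mul_sum, ← Finset.sum_sub_distrib]
  rw [Finset.sum_comm]
  refine (Finset.abs_sum_le_sum_abs _ _).trans ?_
  calc _ ≤ ∑ t ∈ range T₀, wgt t * S := by
        refine Finset.sum_le_sum fun t ht => ?_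
        have ht' : (t : ℤ) < T₀ := by exact_mod_cast mem_range.1 ht
        have ht0 : (0 : ℤ) ≤ t := Int.natCast_nonneg t
        have hw := wgt_nonneg t
        rcases Nat.eq_zero_or_pos t with rfl | hpos
        · simp only [hm0, zero_mul, zero_div, mul_zero, sub_zero, sum_const_zero, abs_zero]
          positivity
        have ht1 : (1 : ℝ) ≤ t := by exact_mod_cast hpos
        have k1 : |1 / ((t : ℝ) + γ) - 1 / (t + 1 / 2)| ≤ wgt t :=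
          ker_diff ht1 (by linarith) (by linarith)
        have k2 : |1 / (1 + (t : ℝ) - γ) - 1 / (t + 1 / 2)| ≤ wgt t :=
          ker_diff ht1 (by linarith) (by linarith)
        have p1 := hsh t (by omega) (by omega)
        have p2 := hsh (-1 - t) (by omega) (by omega)
        refine (Finset.abs_sum_le_sum_abs _ _).trans ?_
        calc _ ≤ ∑ z ∈ A, (wgt t * |d z * f (z.1 + t) z.2 * g z.1 (z.2 + t)|
              + wgt t * |d z * f (z.1 + (-1 - t)) z.2 * g z.1 (z.2 + (-1 - t))|) := by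
              refine Finset.sum_le_sum fun z _ => ?_
              rw [show z.1 + (-1 - t) = z.1 - 1 - t by ring, show z.2 + (-1 - t) = z.2 - 1 - t by ring]
              generalize f (z.1 + t) z.2 = f1
              generalize g z.1 (z.2 + t) = g1
              generalize f (z.1 - 1 - t) z.2 = f2
              generalize g z.1 (z.2 - 1 - t) = g2
              have e : d z * (m z t * (f1 * g1 / ((t : ℝ) + γ) + f2 * g2 / (-1 - (t : ℝ) + γ)))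
                  - d z * (m z t / ((t : ℝ) + 1 / 2) * (f1 * g1 - f2 * g2))
                  = m z t * ((1 / ((t : ℝ) + γ) - 1 / (t + 1 / 2)) * (d z * f1 * g1)
                    - (1 / (1 + (t : ℝ) - γ) - 1 / (t + 1 / 2)) * (d z * f2 * g2)) := by
                rw [show -1 - (t : ℝ) + γ = -(1 + t - γ) by ring, div_neg]
                ring
              rw [e, abs_mul]
              refine (mul_le_of_le_one_left (abs_nonneg _) (hm1 z t)).trans ((abs_sub _ _).trans ?_)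
              rw [abs_mul, abs_mul _ (d z * f2 * g2)]
              gcongr
          _ ≤ wgt t * S := by
              rw [sum_add_distrib, ← Finset.mul_sum, ← Finset.mul_sum]
              nlinarith
    _ ≤ 2 * S := by
        rw [← Finset.sum_mul]
        exact mul_le_mul_of_nonneg_right (sum_wgt_le T₀) hS0

end Crest.Agent.R72.DiscZ
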