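import Crest.Agent.R72.Local

/-! # R72 task Dyad: the discrete dyadic estimate -/

set_option autoImplicit false

namespace Crest.Agent.R72

open Matrix Finset
open scoped MatrixOrder

namespace Dyad

section Step
variable {ι : Type*} [Fintype ι] [DecidableEq ι]

/-- the three-slot potential -/
noncomputable def T (a b c : Matrix ι ι ℝ) (w₀ w₁ w₂ : ι → ℝ) : ℝ :=
  Psi (gram aᵀ w₁ + gram c w₂) w₀ + Psi (gram a w₀ + gram bᵀ w₂) w₁
    + Psi (gram b w₁ + gram cᵀ w₀) w₂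

theorem T_nonneg (a b c : Matrix ι ι ℝ) (w₀ w₁ w₂ : ι → ℝ) : 0 ≤ T a b c w₀ w₁ w₂ :=
  add_nonneg (add_nonneg (Psi_nonneg _ _) (Psi_nonneg _ _)) (Psi_nonneg _ _)

theorem gap_le (x y : Matrix ι ι ℝ) {P M P' M' : ι → ℝ} (hP : ∀ i, 0 ≤ P i) (hM : ∀ i, 0 ≤ M i)
    (hP' : ∀ i, 0 ≤ P' i) (hM' : ∀ i, 0 ≤ M' i) (U V : ι → ℝ) :
    gapW (gram x (fun i => (P i + M i) / 2) + gram y (fun i => (P' i + M' i) / 2)) U V ≤
      (Psi (gram x P + gram y P') U + Psi (gram x M + gram y M') U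
        + Psi (gram x P + gram y M') V + Psi (gram x M + gram y P') V) / 4
      - Psi (gram x (fun i => (P i + M i) / 2) + gram y (fun i => (P' i + M' i) / 2))
        (fun i => (U i + V i) / 2) := by
  have h1 := Psi_convS (add_nonneg (gram_nonneg x hP) (gram_nonneg y hP'))
    (add_nonneg (gram_nonneg x hM) (gram_nonneg y hM')) U
  have h2 := Psi_convS (add_nonneg (gram_nonneg x hP) (gram_nonneg y hM'))
    (add_nonneg (gram_nonneg x hM) (gram_nonneg y hP')) V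
  have e1 : (1 / 2 : ℝ) • (gram x P + gram y P' + (gram x M + gram y M')) =
      gram x (fun i => (P i + M i) / 2) + gram y (fun i => (P' i + M' i) / 2) := by
    rw [gram_avg, gram_avg, ← smul_add]; congr 1; abel
  have e2 : (1 / 2 : ℝ) • (gram x P + gram y M' + (gram x M + gram y P')) =
      gram x (fun i => (P i + M i) / 2) + gram y (fun i => (P' i + M' i) / 2) := by
    rw [gram_avg, gram_avg, ← smul_add]; congr 1; abel
  rw [e1] at h1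
  rw [e2] at h2
  unfold gapW
  linarith

theorem step (a b c : Matrix ι ι ℝ) {P₀ M₀ P₁ M₁ P₂ M₂ : ι → ℝ}
    (hP₀ : ∀ i, 0 ≤ P₀ i) (hM₀ : ∀ i, 0 ≤ M₀ i) (hP₁ : ∀ i, 0 ≤ P₁ i) (hM₁ : ∀ i, 0 ≤ M₁ i)
    (hP₂ : ∀ i, 0 ≤ P₂ i) (hM₂ : ∀ i, 0 ≤ M₂ i) :
    |trace (diagonal (fun i => (P₀ i - M₀ i) / 2) * a * diagonal (fun i => (P₁ i - M₁ i) / 2) * b *
        diagonal (fun i => (P₂ i - M₂ i) / 2) * c)| ≤
      8 / 9 * ((T a b c P₀ P₁ P₂ + T a b c P₀ M₁ M₂ + T a b c M₀ P₁ M₂ + T a b c M₀ M₁ P₂) / 4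
        - T a b c (fun i => (P₀ i + M₀ i) / 2) (fun i => (P₁ i + M₁ i) / 2)
          (fun i => (P₂ i + M₂ i) / 2)) := by
  have w₀ : ∀ i, 0 ≤ (P₀ i + M₀ i) / 2 := fun i => by linarith [hP₀ i, hM₀ i]
  have w₁ : ∀ i, 0 ≤ (P₁ i + M₁ i) / 2 := fun i => by linarith [hP₁ i, hM₁ i]
  have w₂ : ∀ i, 0 ≤ (P₂ i + M₂ i) / 2 := fun i => by linarith [hP₂ i, hM₂ i]
  have h := localW a b c hP₀ hM₀ hP₁ hM₁ hP₂ hM₂
    (le_add_of_nonneg_right (gram_nonneg c w₂)) (le_add_of_nonneg_left (gram_nonneg aᵀ w₁))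
    (le_add_of_nonneg_right (gram_nonneg bᵀ w₂)) (le_add_of_nonneg_left (gram_nonneg a w₀))
    (le_add_of_nonneg_right (gram_nonneg cᵀ w₀)) (le_add_of_nonneg_left (gram_nonneg b w₁))
  have g₀ := gap_le aᵀ c hP₁ hM₁ hP₂ hM₂ P₀ M₀
  have g₁ := gap_le a bᵀ hP₀ hM₀ hP₂ hM₂ P₁ M₁
  have g₂ := gap_le b cᵀ hP₁ hM₁ hP₀ hM₀ P₂ M₂
  unfold T
  linarith

theorem trace_expand (a b c : Matrix ι ι ℝ) (h₀ h₁ h₂ : ι → ℝ) :
    trace (diagonal h₀ * a * diagonal h₁ * b * diagonal h₂ * c) =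
      ∑ x, h₀ x * ∑ y, h₁ y * ∑ z, h₂ z * (a x y * b y z * c z x) := by
  simp only [Matrix.trace, Matrix.diag]
  refine Finset.sum_congr rfl fun x _ => ?_
  simp only [Matrix.mul_apply (M := _ * diagonal h₂), Matrix.mul_diagonal,
    Matrix.mul_apply (M := _ * diagonal h₁), Matrix.diagonal_mul, Finset.sum_mul, Finset.mul_sum]
  rw [Finset.sum_comm]
  refine Finset.sum_congr rfl fun y _ => Finset.sum_congr rfl fun z _ => ?_
  ring

theorem gram_delta (x : Matrix ι ι ℝ) (n i : ι) :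
    gram x (fun j => if j = n then 1 else 0) i i = x n i ^ 2 := by
  simp only [gram, Matrix.mul_apply (M := _ * diagonal _), Matrix.mul_diagonal,
    Matrix.transpose_apply]
  rw [Finset.sum_eq_single n (fun j _ hj => by simp [hj]) (by simp)]
  simp [sq]

theorem Psi_delta (S : Matrix ι ι ℝ) (n : ι) (hS : 0 ≤ S n n) :
    Psi S (fun j => if j = n then 1 else 0) = √(S n n) ^ 3 := by
  have e : cj (fun j => if j = n then 1 else 0) S =
      diagonal (fun j => if j = n then S n n else 0) := by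
    ext i j
    simp only [cj, dsq, Matrix.mul_diagonal, Matrix.diagonal_mul, Matrix.diagonal_apply]
    by_cases hi : i = n <;> by_cases hj : j = n
    · simp [hi, hj]
    · simp [hi, hj, Ne.symm hj]
    · simp [hi, hj]
    · simp [hi, hj]
  rw [Psi, e, psi_diagonal (fun i => by split_ifs <;> simp [hS])]
  rw [Finset.sum_eq_single n (fun j _ hj => by simp [hj]) (by simp)]
  simp

theorem sqrt_cube_le (p q : ℝ) : √(p ^ 2 + q ^ 2) ^ 3 ≤ 4 * (|p| ^ 3 + |q| ^ 3) := by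
  have hp := abs_nonneg p
  have hq := abs_nonneg q
  have h1 : √(p ^ 2 + q ^ 2) ≤ |p| + |q| := by
    rw [Real.sqrt_le_left (by positivity), ← sq_abs p, ← sq_abs q]
    nlinarith [mul_nonneg hp hq]
  refine (pow_le_pow_left₀ (Real.sqrt_nonneg _) h1 3).trans ?_
  nlinarith [mul_nonneg (add_nonneg hp hq) (sq_nonneg (|p| - |q|))]

theorem T_delta (a b c : Matrix ι ι ℝ) (n₀ n₁ n₂ : ι) :
    T a b c (fun j => if j = n₀ then 1 else 0) (fun j => if j = n₁ then 1 else 0)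
      (fun j => if j = n₂ then 1 else 0) ≤
      8 * (|a n₀ n₁| ^ 3 + |b n₁ n₂| ^ 3 + |c n₂ n₀| ^ 3) := by
  unfold T
  rw [Psi_delta, Psi_delta, Psi_delta] <;>
    simp only [Matrix.add_apply, gram_delta, Matrix.transpose_apply]
  · linarith [sqrt_cube_le (a n₀ n₁) (c n₂ n₀), sqrt_cube_le (a n₀ n₁) (b n₁ n₂),
      sqrt_cube_le (b n₁ n₂) (c n₂ n₀)]
  all_goals positivity

end Step

/-- normalised indicator of a dyadic block -/
noncomputable def W (K k n : ℕ) : Fin (2 ^ K) → ℝ :=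
  fun x => if (x : ℕ) / 2 ^ k = n then 1 / 2 ^ k else 0

theorem W_nonneg (K k n : ℕ) (x : Fin (2 ^ K)) : 0 ≤ W K k n x := by
  unfold W; split_ifs <;> positivity

theorem W_succ (K k n : ℕ) :
    (fun x => (W K k (2 * n) x + W K k (2 * n + 1) x) / 2) = W K (k + 1) n := by
  funext x
  unfold W
  rw [pow_succ, ← Nat.div_div_eq_div_mul]
  generalize (x : ℕ) / 2 ^ k = y
  by_cases h1 : y = 2 * n
  · rw [if_pos h1, if_neg (by omega), if_pos (by omega)]; ring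
  by_cases h2 : y = 2 * n + 1
  · rw [if_neg h1, if_pos h2, if_pos (by omega)]; ring
  · rw [if_neg h1, if_neg h2, if_neg (by omega)]; ring

theorem W_zero (K : ℕ) (n : Fin (2 ^ K)) : W K 0 n = fun j => if j = n then 1 else 0 := by
  funext x
  simp [W, Fin.ext_iff]

theorem sum_haar {K k n : ℕ} (hk : k < K) (hn : n < 2 ^ (K - (k + 1))) (f : ℕ → ℝ) :
    ∑ x : Fin (2 ^ K), (W K k (2 * n) x - W K k (2 * n + 1) x) / 2 * f x =
      (∑ i ∈ range (2 ^ (k + 1)), sg k i * f (2 ^ (k + 1) * n + i)) / 2 ^ (k + 1) := by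
  have hle : 2 ^ (k + 1) * n + 2 ^ (k + 1) ≤ 2 ^ K := by
    have : 2 ^ K = 2 ^ (k + 1) * 2 ^ (K - (k + 1)) := by rw [← pow_add]; congr 1; omega
    rw [this, ← Nat.mul_succ]
    exact Nat.mul_le_mul_left _ hn
  have hpos : 0 < 2 ^ k := by positivity
  let g : ℕ → ℝ := fun x => ((if x / 2 ^ k = 2 * n then 1 / 2 ^ k else 0) -
    (if x / 2 ^ k = 2 * n + 1 then 1 / 2 ^ k else 0)) / 2 * f x
  have h1 : ∑ x : Fin (2 ^ K), (W K k (2 * n) x - W K k (2 * n + 1) x) / 2 * f x =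
      ∑ x ∈ range (2 ^ K), g x := Fin.sum_univ_eq_sum_range g _
  have h2 : ∑ x ∈ Ico (2 ^ (k + 1) * n) (2 ^ (k + 1) * n + 2 ^ (k + 1)), g x =
      ∑ x ∈ range (2 ^ K), g x := by
    refine Finset.sum_subset (fun x hx => ?_) fun x _ hx => ?_
    · exact mem_range.2 ((mem_Ico.1 hx).2.trans_le hle)
    · have : ¬ (x / 2 ^ k = 2 * n ∨ x / 2 ^ k = 2 * n + 1) := by
        intro h
        apply hx
        have h3 : x / 2 ^ (k + 1) = n := by
          rw [pow_succ, ← Nat.div_div_eq_div_mul]; omega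
        have h4 := Nat.div_add_mod x (2 ^ (k + 1))
        have h5 := Nat.mod_lt x (show 0 < 2 ^ (k + 1) by positivity)
        rw [h3] at h4
        rw [mem_Ico]; omega
      push Not at this
      simp only [g, if_neg this.1, if_neg this.2]; ring
  rw [h1, ← h2, Finset.sum_Ico_eq_sum_range, Nat.add_sub_cancel_left, Finset.sum_div]
  refine Finset.sum_congr rfl fun i hi => ?_
  have h3 : (2 ^ (k + 1) * n + i) / 2 ^ k = 2 * n + i / 2 ^ k := by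
    rw [pow_succ, mul_assoc, Nat.mul_add_div hpos]
  have h4 : i / 2 ^ k < 2 := by
    rw [Nat.div_lt_iff_lt_mul hpos]; have := mem_range.1 hi; rw [pow_succ] at this; omega
  simp only [g, h3, sg]
  by_cases h5 : i < 2 ^ k
  · have : i / 2 ^ k = 0 := Nat.div_eq_of_lt h5
    rw [this, if_pos (by omega), if_neg (by omega), if_pos h5]; ring
  · have : 1 ≤ i / 2 ^ k := by rw [Nat.le_div_iff_mul_le hpos]; omega
    rw [if_neg (by omega), if_pos (by omega), if_neg h5]; ring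

/-- restriction to a square matrix -/
def mat (K : ℕ) (a : ℕ → ℕ → ℝ) : Matrix (Fin (2 ^ K)) (Fin (2 ^ K)) ℝ := fun i j => a i j

theorem dloc_eq {K k n₀ n₁ n₂ : ℕ} (hk : k < K) (h₀ : n₀ < 2 ^ (K - (k + 1)))
    (h₁ : n₁ < 2 ^ (K - (k + 1))) (h₂ : n₂ < 2 ^ (K - (k + 1))) (a b c : ℕ → ℕ → ℝ) :
    dloc k n₀ n₁ n₂ a b c = 4 ^ (k + 1) *
      trace (diagonal (fun i => (W K k (2 * n₀) i - W K k (2 * n₀ + 1) i) / 2) * mat K a *
        diagonal (fun i => (W K k (2 * n₁) i - W K k (2 * n₁ + 1) i) / 2) * mat K b *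
        diagonal (fun i => (W K k (2 * n₂) i - W K k (2 * n₂ + 1) i) / 2) * mat K c) := by
  rw [trace_expand]
  simp only [mat]
  have e₂ : ∀ x y : ℕ, ∑ z : Fin (2 ^ K), (W K k (2 * n₂) z - W K k (2 * n₂ + 1) z) / 2 *
      (a x y * b y z * c z x) = _ := fun x y => sum_haar hk h₂ (fun z => a x y * b y z * c z x)
  simp only [e₂]
  have e₁ := fun x : ℕ => sum_haar hk h₁ (fun y => (∑ i ∈ range (2 ^ (k + 1)),
    sg k i * (a x y * b y (2 ^ (k + 1) * n₂ + i) * c (2 ^ (k + 1) * n₂ + i) x)) / 2 ^ (k + 1))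
  simp only [e₁]
  rw [sum_haar hk h₀ (fun x => (∑ j ∈ range (2 ^ (k + 1)), sg k j *
    ((∑ i ∈ range (2 ^ (k + 1)), sg k i * (a x (2 ^ (k + 1) * n₁ + j) *
      b (2 ^ (k + 1) * n₁ + j) (2 ^ (k + 1) * n₂ + i) * c (2 ^ (k + 1) * n₂ + i) x))
      / 2 ^ (k + 1))) / 2 ^ (k + 1))]
  unfold dloc
  simp only [Finset.sum_div, Finset.mul_sum]
  refine Finset.sum_congr rfl fun i _ => Finset.sum_congr rfl fun j _ =>
    Finset.sum_congr rfl fun l _ => ?_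
  rw [show (4 : ℝ) ^ (k + 1) = 2 ^ (k + 1) * 2 ^ (k + 1) by rw [← mul_pow]; norm_num]
  field_simp

theorem xor_00 (m n : ℕ) : (2 * m) ^^^ (2 * n) = 2 * (m ^^^ n) := by
  simpa [Nat.bit] using Nat.xor_bit false m false n
theorem xor_01 (m n : ℕ) : (2 * m) ^^^ (2 * n + 1) = 2 * (m ^^^ n) + 1 := by
  simpa [Nat.bit] using Nat.xor_bit false m true n
theorem xor_10 (m n : ℕ) : (2 * m + 1) ^^^ (2 * n) = 2 * (m ^^^ n) + 1 := by
  simpa [Nat.bit] using Nat.xor_bit true m false n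
theorem xor_11 (m n : ℕ) : (2 * m + 1) ^^^ (2 * n + 1) = 2 * (m ^^^ n) := by
  simpa [Nat.bit] using Nat.xor_bit true m true n

theorem sum_range_two_mul (N : ℕ) (f : ℕ → ℝ) :
    ∑ m ∈ range (2 * N), f m = ∑ n ∈ range N, (f (2 * n) + f (2 * n + 1)) := by
  induction N with
  | zero => simp
  | succ N ih => rw [Nat.mul_succ, sum_range_succ, sum_range_succ, ih, sum_range_succ, add_assoc]

/-- the total potential at scale `k` -/
noncomputable def G (K k : ℕ) (a b c : ℕ → ℕ → ℝ) : ℝ :=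
  ∑ n₀ ∈ range (2 ^ (K - k)), ∑ n₁ ∈ range (2 ^ (K - k)),
    4 ^ k * T (mat K a) (mat K b) (mat K c) (W K k n₀) (W K k n₁) (W K k (n₀ ^^^ n₁))

theorem G_nonneg (K k : ℕ) (a b c : ℕ → ℕ → ℝ) : 0 ≤ G K k a b c :=
  sum_nonneg fun _ _ => sum_nonneg fun _ _ => mul_nonneg (by positivity) (T_nonneg _ _ _ _ _ _)

theorem scale {K k : ℕ} (hk : k < K) (a b c : ℕ → ℕ → ℝ) :
    ∑ n₀ ∈ range (2 ^ (K - (k + 1))), ∑ n₁ ∈ range (2 ^ (K - (k + 1))),
        |dloc k n₀ n₁ (n₀ ^^^ n₁) a b c| ≤ 8 / 9 * (G K k a b c - G K (k + 1) a b c) := by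
  have e : 2 ^ (K - k) = 2 * 2 ^ (K - (k + 1)) := by
    rw [← pow_succ']; congr 1; omega
  unfold G
  rw [e, sum_range_two_mul]
  simp only [sum_range_two_mul, xor_00, xor_01, xor_10, xor_11]
  rw [← Finset.sum_sub_distrib, Finset.mul_sum]
  refine Finset.sum_le_sum fun n₀ h₀ => ?_
  rw [← Finset.sum_add_distrib, ← Finset.sum_sub_distrib, Finset.mul_sum]
  refine Finset.sum_le_sum fun n₁ h₁ => ?_
  rw [dloc_eq hk (mem_range.1 h₀) (mem_range.1 h₁)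
    (Nat.xor_lt_two_pow (mem_range.1 h₀) (mem_range.1 h₁)), abs_mul,
    abs_of_nonneg (by positivity : (0 : ℝ) ≤ 4 ^ (k + 1))]
  have h := step (mat K a) (mat K b) (mat K c) (W_nonneg K k (2 * n₀)) (W_nonneg K k (2 * n₀ + 1))
    (W_nonneg K k (2 * n₁)) (W_nonneg K k (2 * n₁ + 1)) (W_nonneg K k (2 * (n₀ ^^^ n₁)))
    (W_nonneg K k (2 * (n₀ ^^^ n₁) + 1))
  rw [W_succ, W_succ, W_succ] at h
  refine (mul_le_mul_of_nonneg_left h (by positivity)).trans (le_of_eq ?_)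
  ring

theorem sum_xor (K m : ℕ) (hm : m < 2 ^ K) (f : ℕ → ℝ) :
    ∑ n ∈ range (2 ^ K), f (m ^^^ n) = ∑ n ∈ range (2 ^ K), f n := by
  refine Finset.sum_nbij' (fun n => m ^^^ n) (fun n => m ^^^ n) ?_ ?_ ?_ ?_ fun _ _ => rfl
  · exact fun n hn => mem_range.2 (Nat.xor_lt_two_pow hm (mem_range.1 hn))
  · exact fun n hn => mem_range.2 (Nat.xor_lt_two_pow hm (mem_range.1 hn))
  · exact fun n _ => Nat.xor_xor_cancel_left m n
  · exact fun n _ => Nat.xor_xor_cancel_left m n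

theorem G_zero_le (K : ℕ) (a b c : ℕ → ℕ → ℝ) :
    G K 0 a b c ≤
      8 * ∑ i ∈ range (2 ^ K), ∑ j ∈ range (2 ^ K), (|a i j| ^ 3 + |b i j| ^ 3 + |c i j| ^ 3) := by
  have h1 : G K 0 a b c ≤ ∑ i ∈ range (2 ^ K), ∑ j ∈ range (2 ^ K),
      8 * (|a i j| ^ 3 + |b j (i ^^^ j)| ^ 3 + |c (i ^^^ j) i| ^ 3) := by
    unfold G
    refine Finset.sum_le_sum fun i hi => Finset.sum_le_sum fun j hj => ?_
    have hi' : i < 2 ^ K := mem_range.1 hi
    have hj' : j < 2 ^ K := mem_range.1 hj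
    have h := T_delta (mat K a) (mat K b) (mat K c) ⟨i, hi'⟩ ⟨j, hj'⟩
      ⟨i ^^^ j, Nat.xor_lt_two_pow hi' hj'⟩
    rw [← W_zero, ← W_zero, ← W_zero] at h
    rw [pow_zero, one_mul]
    exact h
  refine h1.trans (le_of_eq ?_)
  simp only [← Finset.mul_sum, Finset.sum_add_distrib]
  have eb : ∑ i ∈ range (2 ^ K), ∑ j ∈ range (2 ^ K), |b j (i ^^^ j)| ^ 3 =
      ∑ i ∈ range (2 ^ K), ∑ j ∈ range (2 ^ K), |b i j| ^ 3 := by
    rw [Finset.sum_comm]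
    refine Finset.sum_congr rfl fun j hj => ?_
    simp only [Nat.xor_comm _ j]
    exact sum_xor K j (mem_range.1 hj) (fun n => |b j n| ^ 3)
  have ec : ∑ i ∈ range (2 ^ K), ∑ j ∈ range (2 ^ K), |c (i ^^^ j) i| ^ 3 =
      ∑ i ∈ range (2 ^ K), ∑ j ∈ range (2 ^ K), |c i j| ^ 3 := by
    rw [Finset.sum_comm (f := fun i j => |c i j| ^ 3)]
    refine Finset.sum_congr rfl fun i hi => ?_
    exact sum_xor K i (mem_range.1 hi) (fun n => |c n i| ^ 3)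
  rw [eb, ec]

end Dyad

/-- Matrices on `ι = Fin (2^K)`; `W k n` = normalised indicator (`2^{-k}` on `[2^k n, 2^k (n+1))`), so
`W (k+1) n = (W k (2n) + W k (2n+1))/2`.  For `n₂ = n₀ ^^^ n₁` let
`Φ k n₀ n₁ = 4^k (Psi S₀ (W k n₀) + Psi S₁ (W k n₁) + Psi S₂ (W k n₂))`,
`S₀ = gram aᵀ (W k n₁) + gram c (W k n₂)`, `S₁ = gram a (W k n₀) + gram bᵀ (W k n₂)`,
`S₂ = gram b (W k n₁) + gram cᵀ (W k n₀)`.  The children of `(n₀, n₁)` are `(2n₀+ε₀, 2n₁+ε₁)`, third index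
`2 n₂ + (ε₀ xor ε₁)`.  For each slot `i` and each half `ε_i` there are two children, whose `S_i` average to the
parent's `S_i`; `Psi_convS` gives
`Φ (k+1) n₀ n₁ + 4^(k+1) ∑_i gapW S_i (W k (2n_i)) (W k (2n_i+1)) ≤ ∑_{children} Φ k`.
`dloc k n₀ n₁ n₂ = 4^(k+1) tr (h₀ a h₁ b h₂ c)` with `h_i = (W k (2n_i) - W k (2n_i+1))/2`, so `localW` and telescoping give
`∑ |dloc| ≤ (8/9) ∑_{n₀,n₁<2^K} Φ 0 n₀ n₁`, and `Psi S₁ (W 0 n₁) = (a n₀ n₁ ² + b n₁ n₂ ²)^{3/2} ≤ 4 (|a|³+|b|³)`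
(`psi_diagonal`); `(n₀, n₁) ↦ (n₁, n₀ ^^^ n₁)` etc. are bijections of `[0,2^K)²`. -/
theorem dyad (K : ℕ) (a b c : ℕ → ℕ → ℝ) :
    ∑ k ∈ range K, ∑ n₀ ∈ range (2 ^ (K - (k + 1))), ∑ n₁ ∈ range (2 ^ (K - (k + 1))),
        |dloc k n₀ n₁ (n₀ ^^^ n₁) a b c|
      ≤ 8 * ∑ i ∈ range (2 ^ K), ∑ j ∈ range (2 ^ K), (|a i j| ^ 3 + |b i j| ^ 3 + |c i j| ^ 3) := by
  have h1 : ∑ k ∈ range K, ∑ n₀ ∈ range (2 ^ (K - (k + 1))), ∑ n₁ ∈ range (2 ^ (K - (k + 1))),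
      |dloc k n₀ n₁ (n₀ ^^^ n₁) a b c| ≤
      ∑ k ∈ range K, 8 / 9 * (Dyad.G K k a b c - Dyad.G K (k + 1) a b c) :=
    Finset.sum_le_sum fun k hk => Dyad.scale (mem_range.1 hk) a b c
  rw [← Finset.mul_sum, Finset.sum_range_sub'] at h1
  linarith [Dyad.G_nonneg K K a b c, Dyad.G_nonneg K 0 a b c, Dyad.G_zero_le K a b c]

end Crest.Agent.R72
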