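import Crest.Agent.R72.Defs
import Crest.Prelude.Def_DyadicTriangular

/-! # R72 task DyadCont: auxiliary lemmas (bounded measurable functions, cell decompositions) -/

set_option autoImplicit false

namespace Crest.Agent.R72.DyadCont

open Finset MeasureTheory Crest.AnalysisR

/-- bounded measurable -/
def BM {X : Type*} [MeasurableSpace X] (f : X → ℝ) : Prop :=
  Measurable f ∧ ∃ C : ℝ, ∀ x, |f x| ≤ C

section BM
variable {X Y : Type*} [MeasurableSpace X] [MeasurableSpace Y]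

theorem BM.integrable {f : X → ℝ} (hf : BM f) (μ : Measure X) [IsFiniteMeasure μ] :
    Integrable f μ := by
  obtain ⟨hm, C, hC⟩ := hf
  exact Integrable.of_bound hm.aestronglyMeasurable C
    (Filter.Eventually.of_forall fun x => by simpa [Real.norm_eq_abs] using hC x)

theorem BM.comp {f : Y → ℝ} (hf : BM f) {g : X → Y} (hg : Measurable g) :
    BM (fun x => f (g x)) := by
  obtain ⟨hm, C, hC⟩ := hf
  exact ⟨hm.comp hg, C, fun x => hC _⟩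

theorem BM.const (c : ℝ) : BM (fun _ : X => c) := ⟨measurable_const, |c|, fun _ => le_rfl⟩

theorem BM.mul {f g : X → ℝ} (hf : BM f) (hg : BM g) : BM (fun x => f x * g x) := by
  obtain ⟨hm, C, hC⟩ := hf
  obtain ⟨hm', C', hC'⟩ := hg
  refine ⟨hm.mul hm', C * C', fun x => ?_⟩
  rw [abs_mul]
  exact mul_le_mul (hC x) (hC' x) (abs_nonneg _) ((abs_nonneg _).trans (hC x))

theorem BM.add {f g : X → ℝ} (hf : BM f) (hg : BM g) : BM (fun x => f x + g x) := by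
  obtain ⟨hm, C, hC⟩ := hf
  obtain ⟨hm', C', hC'⟩ := hg
  exact ⟨hm.add hm', C + C', fun x => (abs_add_le _ _).trans (add_le_add (hC x) (hC' x))⟩

theorem BM.abs {f : X → ℝ} (hf : BM f) : BM (fun x => |f x|) := by
  obtain ⟨hm, C, hC⟩ := hf
  exact ⟨hm.abs, C, fun x => by simpa using hC x⟩

theorem BM.cube {f : X → ℝ} (hf : BM f) : BM (fun x => |f x| ^ 3) := by
  have h := (hf.abs.mul hf.abs).mul hf.abs
  have e : (fun x => |f x| ^ 3) = fun x => |f x| * |f x| * |f x| := by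
    funext x; ring
  rw [e]; exact h

theorem BM.sum {ι : Type*} (S : Finset ι) {f : ι → X → ℝ} (hf : ∀ i ∈ S, BM (f i)) :
    BM (fun x => ∑ i ∈ S, f i x) := by
  classical
  induction S using Finset.induction_on with
  | empty => simpa using BM.const (X := X) 0
  | insert a S ha ih =>
    simp only [Finset.sum_insert ha]
    exact (hf a (Finset.mem_insert_self _ _)).add
      (ih fun i hi => hf i (Finset.mem_insert_of_mem hi))

theorem BM.integral {f : X × Y → ℝ} (hf : BM f) (μ : Measure Y) [IsFiniteMeasure μ] :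
    BM (fun x => ∫ y, f (x, y) ∂μ) := by
  obtain ⟨hm, C, hC⟩ := hf
  refine ⟨(hm.stronglyMeasurable.integral_prod_right' (ν := μ)).measurable, C * μ.real Set.univ,
    fun x => ?_⟩
  have := norm_integral_le_of_norm_le_const (μ := μ) (f := fun y => f (x, y)) (C := C)
    (Filter.Eventually.of_forall fun y => by simpa [Real.norm_eq_abs] using hC (x, y))
  simpa [Real.norm_eq_abs] using this

end BM

theorem bm_haar (k : ℤ) (n : ℕ) : BM (TriangularDyadic.haarSign k n) := by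
  refine ⟨?_, 1, fun x => ?_⟩
  · unfold TriangularDyadic.haarSign
    exact Measurable.ite measurableSet_Ico measurable_const
      (Measurable.ite measurableSet_Ico measurable_const measurable_const)
  · unfold TriangularDyadic.haarSign
    split_ifs <;> simp

/-- the cell measure -/
noncomputable def cell (δ : ℝ) : Measure ℝ := volume.restrict (Set.Ico 0 δ)

instance (δ : ℝ) : IsFiniteMeasure (cell δ) := by
  unfold cell
  exact isFiniteMeasure_restrict.2 (by simp)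

theorem cell_real (δ : ℝ) (hδ : 0 ≤ δ) : (cell δ).real Set.univ = δ := by
  simp [cell, Measure.real, hδ]

/-- cutting an interval into cells -/
theorem cells (δ : ℝ) (hδ : 0 ≤ δ) (a M : ℕ) {g : ℝ → ℝ} (hg : BM g) :
    ∫ x in Set.Ico (δ * a) (δ * (a + M)), g x
      = ∑ i ∈ range M, ∫ s, g (s + δ * ((a + i : ℕ) : ℝ)) ∂(cell δ) := by
  have hint : ∀ u v : ℝ, IntervalIntegrable g volume u v := by
    intro u v
    constructor
    · have : IsFiniteMeasure (volume.restrict (Set.Ioc u v)) :=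
        isFiniteMeasure_restrict.2 (by simp)
      exact hg.integrable _
    · have : IsFiniteMeasure (volume.restrict (Set.Ioc v u)) :=
        isFiniteMeasure_restrict.2 (by simp)
      exact hg.integrable _
  have h1 : δ * a ≤ δ * (a + M) := by
    have : (0 : ℝ) ≤ M := Nat.cast_nonneg _
    nlinarith
  rw [integral_Ico_eq_integral_Ioo, ← integral_Ioc_eq_integral_Ioo,
    ← intervalIntegral.integral_of_le h1]
  have h2 := intervalIntegral.sum_integral_adjacent_intervals (f := g) (μ := volume)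
    (a := fun i : ℕ => δ * ((a + i : ℕ) : ℝ)) (n := M) (fun k _ => hint _ _)
  simp only [add_zero] at h2
  rw [show δ * ((a : ℝ) + M) = δ * ((a + M : ℕ) : ℝ) by push_cast; ring, ← h2]
  refine Finset.sum_congr rfl fun i _ => ?_
  unfold cell
  rw [integral_Ico_eq_integral_Ioo, ← integral_Ioc_eq_integral_Ioo,
    ← intervalIntegral.integral_of_le hδ, intervalIntegral.integral_comp_add_right]
  congr 1
  · ring
  · push_cast; ring

theorem cells_sum (δ : ℝ) (hδ : 0 ≤ δ) (a M : ℕ) {ι : Type*} (S : Finset ι) {g : ι → ℝ → ℝ}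
    (hg : ∀ l ∈ S, BM (g l)) :
    ∫ x in Set.Ico (δ * a) (δ * (a + M)), ∑ l ∈ S, g l x
      = ∑ i ∈ range M, ∑ l ∈ S, ∫ s, g l (s + δ * ((a + i : ℕ) : ℝ)) ∂(cell δ) := by
  rw [cells δ hδ a M (BM.sum S hg)]
  refine Finset.sum_congr rfl fun i _ => ?_
  rw [integral_finsetSum]
  intro l hl
  exact ((hg l hl).comp (g := fun s => s + δ * ((a + i : ℕ) : ℝ)) (by fun_prop)).integrable _

/-- the triple product of the cell measure -/
noncomputable def cell3 (δ : ℝ) : Measure (ℝ × ℝ × ℝ) := (cell δ).prod ((cell δ).prod (cell δ))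

instance (δ : ℝ) : IsFiniteMeasure (cell3 δ) := by
  unfold cell3; infer_instance

theorem integral_cell3 (δ : ℝ) {Φ : ℝ × ℝ × ℝ → ℝ} (hΦ : BM Φ) :
    ∫ s, Φ s ∂(cell3 δ)
      = ∫ s₀, (∫ s₁, (∫ s₂, Φ (s₀, s₁, s₂) ∂(cell δ)) ∂(cell δ)) ∂(cell δ) := by
  unfold cell3
  rw [integral_prod _ (hΦ.integrable _)]
  refine integral_congr_ae (Filter.Eventually.of_forall fun s₀ => ?_)
  exact integral_prod _ ((hΦ.comp (g := fun p : ℝ × ℝ => (s₀, p)) (by fun_prop)).integrable _)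

theorem cells3 (δ : ℝ) (hδ : 0 ≤ δ) (a₀ a₁ a₂ M : ℕ) {Φ : ℝ × ℝ × ℝ → ℝ} (hΦ : BM Φ) :
    ∫ x₀ in Set.Ico (δ * a₀) (δ * (a₀ + M)), ∫ x₁ in Set.Ico (δ * a₁) (δ * (a₁ + M)),
      ∫ x₂ in Set.Ico (δ * a₂) (δ * (a₂ + M)), Φ (x₀, x₁, x₂)
      = ∑ i ∈ range M, ∑ j ∈ range M, ∑ l ∈ range M,
          ∫ s, Φ (s.1 + δ * ((a₀ + i : ℕ) : ℝ), s.2.1 + δ * ((a₁ + j : ℕ) : ℝ),
            s.2.2 + δ * ((a₂ + l : ℕ) : ℝ)) ∂(cell3 δ) := by
  have h2 : ∀ x₀ x₁ : ℝ, ∫ x₂ in Set.Ico (δ * a₂) (δ * (a₂ + M)), Φ (x₀, x₁, x₂)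
      = ∑ l ∈ range M, ∫ s₂, Φ (x₀, x₁, s₂ + δ * ((a₂ + l : ℕ) : ℝ)) ∂(cell δ) := fun x₀ x₁ =>
    cells δ hδ a₂ M (hΦ.comp (g := fun x₂ : ℝ => (x₀, x₁, x₂)) (by fun_prop))
  have h1 : ∀ x₀ : ℝ, ∫ x₁ in Set.Ico (δ * a₁) (δ * (a₁ + M)),
      ∑ l ∈ range M, ∫ s₂, Φ (x₀, x₁, s₂ + δ * ((a₂ + l : ℕ) : ℝ)) ∂(cell δ)
      = ∑ j ∈ range M, ∑ l ∈ range M, ∫ s₁, (∫ s₂, Φ (x₀, s₁ + δ * ((a₁ + j : ℕ) : ℝ),
          s₂ + δ * ((a₂ + l : ℕ) : ℝ)) ∂(cell δ)) ∂(cell δ) := fun x₀ =>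
    cells_sum δ hδ a₁ M (range M)
      (g := fun l x₁ => ∫ s₂, Φ (x₀, x₁, s₂ + δ * ((a₂ + l : ℕ) : ℝ)) ∂(cell δ))
      (fun l _ => BM.integral (hΦ.comp
        (g := fun p : ℝ × ℝ => (x₀, p.1, p.2 + δ * ((a₂ + l : ℕ) : ℝ))) (by fun_prop)) _)
  simp_rw [h2, h1, ← Finset.sum_product']
  rw [cells_sum δ hδ a₀ M (range M ×ˢ range M)
      (g := fun q x₀ => ∫ s₁, (∫ s₂, Φ (x₀, s₁ + δ * ((a₁ + q.1 : ℕ) : ℝ),
          s₂ + δ * ((a₂ + q.2 : ℕ) : ℝ)) ∂(cell δ)) ∂(cell δ))]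
  · rw [Finset.sum_product]
    refine Finset.sum_congr rfl fun i _ => Finset.sum_congr rfl fun q _ => ?_
    rw [integral_cell3 δ (hΦ.comp (g := fun s : ℝ × ℝ × ℝ => (s.1 + δ * ((a₀ + i : ℕ) : ℝ),
      s.2.1 + δ * ((a₁ + q.1 : ℕ) : ℝ), s.2.2 + δ * ((a₂ + q.2 : ℕ) : ℝ))) (by fun_prop))]
  · intro q _
    exact BM.integral (f := fun p : ℝ × ℝ => ∫ s₂, Φ (p.1, p.2 + δ * ((a₁ + q.1 : ℕ) : ℝ),
          s₂ + δ * ((a₂ + q.2 : ℕ) : ℝ)) ∂(cell δ))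
      (BM.integral (hΦ.comp (g := fun p : (ℝ × ℝ) × ℝ => (p.1.1, p.1.2 + δ * ((a₁ + q.1 : ℕ) : ℝ),
        p.2 + δ * ((a₂ + q.2 : ℕ) : ℝ))) (by fun_prop)) _) _


theorem ae_cell3 (δ : ℝ) : ∀ᵐ s ∂(cell3 δ),
    s.1 ∈ Set.Ico 0 δ ∧ s.2.1 ∈ Set.Ico 0 δ ∧ s.2.2 ∈ Set.Ico 0 δ := by
  unfold cell3 cell
  rw [Measure.prod_restrict, Measure.prod_restrict]
  filter_upwards [ae_restrict_mem (measurableSet_Ico.prod (measurableSet_Ico.prod measurableSet_Ico))]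
    with s hs
  exact ⟨hs.1, hs.2.1, hs.2.2⟩

theorem haar_cell (k₀ : ℤ) (κ n i : ℕ) (hi : i < 2 ^ (κ + 1)) (s : ℝ)
    (hs : s ∈ Set.Ico 0 ((2 : ℝ) ^ k₀)) :
    TriangularDyadic.haarSign (k₀ + κ + 1) n (s + 2 ^ k₀ * ((2 ^ (κ + 1) * n + i : ℕ) : ℝ))
      = sg κ i := by
  have hδ : (0 : ℝ) < 2 ^ k₀ := by positivity
  have e1 : (2 : ℝ) ^ (k₀ + κ + 1) = 2 ^ k₀ * (2 * 2 ^ κ) := by
    rw [zpow_add₀ (by norm_num), zpow_add₀ (by norm_num), zpow_natCast]; ring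
  have e2 : (2 : ℝ) ^ (k₀ + κ + 1 - 1) = 2 ^ k₀ * 2 ^ κ := by
    rw [add_sub_cancel_right, zpow_add₀ (by norm_num), zpow_natCast]
  obtain ⟨hs0, hs1⟩ := hs
  have hi0 : (0 : ℝ) ≤ i := Nat.cast_nonneg _
  have hi1 : (i : ℝ) + 1 ≤ 2 * 2 ^ κ := by
    have : i + 1 ≤ 2 * 2 ^ κ := by rw [pow_succ] at hi; omega
    exact_mod_cast this
  unfold TriangularDyadic.haarSign sg
  rw [e1, e2]
  set δ : ℝ := 2 ^ k₀
  have e3 : (((2 ^ (κ + 1) * n + i : ℕ)) : ℝ) = 2 * 2 ^ κ * n + i := by push_cast; ring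
  rw [e3]
  by_cases h : i < 2 ^ κ
  · have h' : (i : ℝ) + 1 ≤ 2 ^ κ := by exact_mod_cast h
    rw [if_pos h, if_pos]
    constructor
    · nlinarith
    · nlinarith
  · have h' : (2 : ℝ) ^ κ ≤ i := by exact_mod_cast not_lt.1 h
    rw [if_neg h, if_neg, if_pos]
    · constructor
      · nlinarith
      · nlinarith
    · intro hh
      have := hh.2
      nlinarith

/-- samples of a function of two variables -/
def samp (δ : ℝ) (F : ℝ × ℝ → ℝ) (u v : ℝ) (i j : ℕ) : ℝ := F (u + δ * i, v + δ * j)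

theorem localForm_eq (k₀ : ℤ) (κ n₀ n₁ n₂ : ℕ) {F₀ F₁ F₂ : ℝ × ℝ → ℝ} (h₀ : BM F₀) (h₁ : BM F₁)
    (h₂ : BM F₂) :
    TriangularDyadic.localForm (k₀ + κ + 1) n₀ n₁ n₂ F₀ F₁ F₂
      = ((2 : ℝ) ^ k₀)⁻¹ * ∫ s, dloc κ n₀ n₁ n₂ (samp (2 ^ k₀) F₀ s.1 s.2.1)
          (samp (2 ^ k₀) F₁ s.2.1 s.2.2) (samp (2 ^ k₀) F₂ s.2.2 s.1) ∂(cell3 (2 ^ k₀)) := by
  have hδ : (0 : ℝ) < 2 ^ k₀ := by positivity
  have e1 : (2 : ℝ) ^ (k₀ + κ + 1) = 2 ^ k₀ * (2 ^ (κ + 1)) := by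
    rw [zpow_add₀ (by norm_num), zpow_add₀ (by norm_num), zpow_natCast]; ring
  have hI : ∀ n : ℕ, TriangularDyadic.interval (k₀ + κ + 1) n
      = Set.Ico ((2 : ℝ) ^ k₀ * ((2 ^ (κ + 1) * n : ℕ) : ℝ))
          ((2 : ℝ) ^ k₀ * (((2 ^ (κ + 1) * n : ℕ) : ℝ) + ((2 ^ (κ + 1) : ℕ) : ℝ))) := by
    intro n
    unfold TriangularDyadic.interval
    rw [e1]
    congr 1
    · push_cast; ring
    · push_cast; ring
  let Φ : ℝ × ℝ × ℝ → ℝ := fun x => F₀ (x.1, x.2.1) * F₁ (x.2.1, x.2.2) * F₂ (x.2.2, x.1) *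
    (TriangularDyadic.haarSign (k₀ + κ + 1) n₀ x.1 * TriangularDyadic.haarSign (k₀ + κ + 1) n₁ x.2.1
      * TriangularDyadic.haarSign (k₀ + κ + 1) n₂ x.2.2)
  have hΦ : BM Φ :=
    (((h₀.comp (by fun_prop)).mul (h₁.comp (by fun_prop))).mul (h₂.comp (by fun_prop))).mul
      ((((bm_haar _ _).comp (by fun_prop)).mul ((bm_haar _ _).comp (by fun_prop))).mul
        ((bm_haar _ _).comp (by fun_prop)))
  have key := cells3 (2 ^ k₀) hδ.le (2 ^ (κ + 1) * n₀) (2 ^ (κ + 1) * n₁) (2 ^ (κ + 1) * n₂)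
    (2 ^ (κ + 1)) hΦ
  unfold TriangularDyadic.localForm
  rw [hI, hI, hI]
  simp only [Φ] at key
  rw [key]
  have hb : ∀ i j l : ℕ, BM (fun s : ℝ × ℝ × ℝ =>
      samp (2 ^ k₀) F₀ s.1 s.2.1 (2 ^ (κ + 1) * n₀ + i) (2 ^ (κ + 1) * n₁ + j)
      * samp (2 ^ k₀) F₁ s.2.1 s.2.2 (2 ^ (κ + 1) * n₁ + j) (2 ^ (κ + 1) * n₂ + l)
      * samp (2 ^ k₀) F₂ s.2.2 s.1 (2 ^ (κ + 1) * n₂ + l) (2 ^ (κ + 1) * n₀ + i)
      * (sg κ i * sg κ j * sg κ l)) := fun i j l =>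
    (((h₀.comp (by fun_prop)).mul (h₁.comp (by fun_prop))).mul (h₂.comp (by fun_prop))).mul
      (BM.const _)
  unfold dloc
  rw [integral_div, integral_finsetSum _ (fun i _ => (BM.sum _ fun j _ => BM.sum _ fun l _ =>
    hb i j l).integrable _)]
  rw [zpow_neg, e1, mul_inv, mul_assoc, div_eq_inv_mul]
  congr 2
  refine Finset.sum_congr rfl fun i hi => ?_
  rw [integral_finsetSum _ (fun j _ => (BM.sum _ fun l _ => hb i j l).integrable _)]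
  refine Finset.sum_congr rfl fun j hj => ?_
  rw [integral_finsetSum _ (fun l _ => (hb i j l).integrable _)]
  refine Finset.sum_congr rfl fun l hl => ?_
  refine integral_congr_ae ?_
  filter_upwards [ae_cell3 (2 ^ k₀)] with s hs
  rw [haar_cell k₀ κ n₀ i (mem_range.1 hi) _ hs.1, haar_cell k₀ κ n₁ j (mem_range.1 hj) _ hs.2.1,
    haar_cell k₀ κ n₂ l (mem_range.1 hl) _ hs.2.2]
  rfl

theorem bm_dloc (δ : ℝ) (κ n₀ n₁ n₂ : ℕ) {F₀ F₁ F₂ : ℝ × ℝ → ℝ} (h₀ : BM F₀) (h₁ : BM F₁)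
    (h₂ : BM F₂) : BM (fun s : ℝ × ℝ × ℝ => dloc κ n₀ n₁ n₂ (samp δ F₀ s.1 s.2.1)
          (samp δ F₁ s.2.1 s.2.2) (samp δ F₂ s.2.2 s.1)) := by
  unfold dloc
  simp only [div_eq_mul_inv]
  refine BM.mul (BM.sum _ fun i _ => BM.sum _ fun j _ => BM.sum _ fun l _ => ?_) (BM.const _)
  exact (((h₀.comp (by fun_prop)).mul (h₁.comp (by fun_prop))).mul (h₂.comp (by fun_prop))).mul
      (BM.const _)

theorem integral_cell3_01 (δ : ℝ) (hδ : 0 ≤ δ) {G : ℝ × ℝ → ℝ} (hG : BM G) :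
    ∫ s, G (s.1, s.2.1) ∂(cell3 δ) = δ * ∫ u, (∫ v, G (u, v) ∂(cell δ)) ∂(cell δ) := by
  rw [integral_cell3 δ (hG.comp (by fun_prop))]
  simp only [integral_const, cell_real δ hδ, smul_eq_mul, integral_const_mul]

theorem integral_cell3_12 (δ : ℝ) (hδ : 0 ≤ δ) {G : ℝ × ℝ → ℝ} (hG : BM G) :
    ∫ s, G (s.2.1, s.2.2) ∂(cell3 δ) = δ * ∫ u, (∫ v, G (u, v) ∂(cell δ)) ∂(cell δ) := by
  rw [integral_cell3 δ (hG.comp (by fun_prop))]
  simp only [integral_const, cell_real δ hδ, smul_eq_mul]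

theorem integral_cell3_20 (δ : ℝ) (hδ : 0 ≤ δ) {G : ℝ × ℝ → ℝ} (hG : BM G) :
    ∫ s, G (s.2.2, s.1) ∂(cell3 δ) = δ * ∫ u, (∫ v, G (u, v) ∂(cell δ)) ∂(cell δ) := by
  rw [integral_cell3 δ (hG.comp (by fun_prop))]
  simp only [integral_const, cell_real δ hδ, smul_eq_mul, integral_const_mul]
  congr 1
  exact integral_integral_swap (f := fun a b => G (b, a))
    ((hG.comp (g := fun p : ℝ × ℝ => (p.2, p.1)) (by fun_prop)).integrable _)

theorem square_le (δ : ℝ) (hδ : 0 ≤ δ) (N : ℕ) {G : ℝ × ℝ → ℝ} (hG : BM G) (hG0 : ∀ z, 0 ≤ G z)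
    (hc : HasCompactSupport G) :
    ∑ i ∈ range N, ∑ j ∈ range N,
        ∫ u, (∫ v, G (u + δ * (i : ℝ), v + δ * (j : ℝ)) ∂(cell δ)) ∂(cell δ)
      ≤ ∫ z in Set.Ici 0 ×ˢ Set.Ici 0, G z := by
  have hint : Integrable G volume := by
    obtain ⟨hm, C, hC⟩ := hG
    rw [← integrableOn_iff_integrable_of_support_subset (subset_tsupport G)]
    have : IsFiniteMeasure ((volume : Measure (ℝ × ℝ)).restrict (tsupport G)) :=
      isFiniteMeasure_restrict.2 hc.isCompact.measure_lt_top.ne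
    exact BM.integrable ⟨hm, C, hC⟩ _
  have h1 : ∀ u : ℝ, ∫ v in Set.Ico (δ * ((0 : ℕ) : ℝ)) (δ * (((0 : ℕ) : ℝ) + N)), G (u, v)
      = ∑ j ∈ range N, ∫ v, G (u, v + δ * ((0 + j : ℕ) : ℝ)) ∂(cell δ) := fun u =>
    cells δ hδ 0 N (hG.comp (g := fun v : ℝ => (u, v)) (by fun_prop))
  have h2 := cells_sum δ hδ 0 N (range N)
    (g := fun j u => ∫ v, G (u, v + δ * ((0 + j : ℕ) : ℝ)) ∂(cell δ))
    (fun j _ => BM.integral (hG.comp
      (g := fun p : ℝ × ℝ => (p.1, p.2 + δ * ((0 + j : ℕ) : ℝ))) (by fun_prop)) _)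
  simp only [← h1] at h2
  simp only [zero_add, Nat.cast_zero, mul_zero] at h2
  rw [← h2, ← setIntegral_prod _ (by exact hint.integrableOn)]
  refine setIntegral_mono_set hint.integrableOn (Filter.Eventually.of_forall hG0)
    (Filter.Eventually.of_forall ?_)
  intro z hz
  exact ⟨hz.1.1, hz.2.1⟩

end Crest.Agent.R72.DyadCont
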