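import Crest.Agent.R72.Dyad
import Crest.Agent.R72.DyadContAux
import Crest.Prelude.Def_DyadicTriangular

/-! # R72 task DyadCont: the dyadic estimate for functions -/

set_option autoImplicit false

namespace Crest.Agent.R72

open Matrix Finset

open MeasureTheory Crest.AnalysisR DyadCont

/-- Choose `k₀ : ℤ` below all scales in `𝓘`, `δ = 2^k₀`, and `K` so large that every triple of `𝓘`
is `(k₀ + k + 1, n₀, n₁)` with `k < K`, `n₀, n₁ < 2^(K-(k+1))`.  For `s ∈ [0,δ)³` sample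
`a i j = F₀ (s₀ + δ i, s₁ + δ j)`, `b j l = F₁ (s₁ + δ j, s₂ + δ l)`, `c l i = F₂ (s₂ + δ l, s₀ + δ i)`.  Cutting each interval into
cells of length `δ` (the Haar sign is constant on cells):
`localForm (k₀+k+1) n₀ n₁ n₂ = δ⁻¹ ∫_{s₀} ∫_{s₁} ∫_{s₂} dloc k n₀ n₁ n₂ a b c`.  So the sum is at most
`δ⁻¹ ∫∫∫ 8 ∑_{i,j} (|a|³+|b|³+|c|³) = 8 ∑_i ∫_{[0, δ 2^K)²} |F_i|³`. -/
theorem dyad_add (F₀ F₁ F₂ : ℝ × ℝ → ℝ) (hF₀ : Measurable F₀) (hF₁ : Measurable F₁)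
    (hF₂ : Measurable F₂) (hb : ∃ M : ℝ, ∀ z, abs (F₀ z) ≤ M ∧ abs (F₁ z) ≤ M ∧ abs (F₂ z) ≤ M)
    (hc₀ : HasCompactSupport F₀) (hc₁ : HasCompactSupport F₁) (hc₂ : HasCompactSupport F₂)
    (𝓘 : Finset (ℤ × ℕ × ℕ)) :
    ∑ i ∈ 𝓘, abs (TriangularDyadic.localForm i.1 i.2.1 i.2.2 (i.2.1 ^^^ i.2.2) F₀ F₁ F₂) ≤
      8 * ((∫ z in Set.Ici 0 ×ˢ Set.Ici 0, abs (F₀ z) ^ 3) +
        (∫ z in Set.Ici 0 ×ˢ Set.Ici 0, abs (F₁ z) ^ 3) +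
        (∫ z in Set.Ici 0 ×ˢ Set.Ici 0, abs (F₂ z) ^ 3)) := by
  obtain ⟨M, hM⟩ := hb
  have h₀ : BM F₀ := ⟨hF₀, M, fun z => (hM z).1⟩
  have h₁ : BM F₁ := ⟨hF₁, M, fun z => (hM z).2.1⟩
  have h₂ : BM F₂ := ⟨hF₂, M, fun z => (hM z).2.2⟩
  obtain ⟨B, hB⟩ : ∃ B : ℕ, ∀ i ∈ 𝓘, i.1.natAbs < B ∧ i.2.1 < B ∧ i.2.2 < B := by
    refine ⟨𝓘.sup (fun i => i.1.natAbs + i.2.1 + i.2.2) + 1, fun i hi => ?_⟩
    have := Finset.le_sup (f := fun i : ℤ × ℕ × ℕ => i.1.natAbs + i.2.1 + i.2.2) hi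
    omega
  set k₀ : ℤ := -(B : ℤ) with hk₀
  set K : ℕ := 3 * B with hK
  set δ : ℝ := 2 ^ k₀ with hδdef
  have hδ : 0 < δ := by positivity
  let f : ℤ × ℕ × ℕ → ℝ := fun i =>
    abs (TriangularDyadic.localForm i.1 i.2.1 i.2.2 (i.2.1 ^^^ i.2.2) F₀ F₁ F₂)
  -- step 1: embed `𝓘` in the full index set
  have step1 : ∑ i ∈ 𝓘, f i ≤ ∑ κ ∈ range K, ∑ n₀ ∈ range (2 ^ (K - (κ + 1))),
      ∑ n₁ ∈ range (2 ^ (K - (κ + 1))), f (k₀ + κ + 1, n₀, n₁) := by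
    simp_rw [← Finset.sum_product']
    rw [Finset.sum_sigma']
    rw [← Finset.sum_image (s := (range K).sigma fun κ =>
      range (2 ^ (K - (κ + 1))) ×ˢ range (2 ^ (K - (κ + 1))))
      (g := fun q : (Σ _ : ℕ, ℕ × ℕ) => ((k₀ + q.1 + 1, q.2.1, q.2.2) : ℤ × ℕ × ℕ)) (f := f)]
    · refine Finset.sum_le_sum_of_subset_of_nonneg ?_ fun _ _ _ => abs_nonneg _
      intro i hi
      obtain ⟨b0, b1, b2⟩ := hB i hi
      refine Finset.mem_image.2 ⟨⟨(i.1 + B - 1).toNat, i.2.1, i.2.2⟩, ?_, ?_⟩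
      · have hlt : B < 2 ^ (K - ((i.1 + B - 1).toNat + 1)) :=
          lt_of_lt_of_le (Nat.lt_two_pow_self) (Nat.pow_le_pow_right (by norm_num) (by omega))
        simp only [Finset.mem_sigma, Finset.mem_range, Finset.mem_product]
        refine ⟨by omega, by omega, by omega⟩
      · ext
        · simp only; omega
        · rfl
        · rfl
    · rintro ⟨κ, a, b⟩ _ ⟨κ', a', b'⟩ _ h
      simp only [Prod.mk.injEq] at h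
      obtain ⟨e1, e2, e3⟩ := h
      have : κ = κ' := by omega
      subst this e2 e3
      rfl
  -- step 2: each term is an average of discrete terms
  let D : ℕ → ℕ → ℕ → ℝ × ℝ × ℝ → ℝ := fun κ n₀ n₁ s =>
    |dloc κ n₀ n₁ (n₀ ^^^ n₁) (samp δ F₀ s.1 s.2.1) (samp δ F₁ s.2.1 s.2.2) (samp δ F₂ s.2.2 s.1)|
  have hD : ∀ κ n₀ n₁, BM (D κ n₀ n₁) := fun κ n₀ n₁ => (bm_dloc δ κ n₀ n₁ _ h₀ h₁ h₂).abs
  have step2 : ∀ κ n₀ n₁ : ℕ, f (k₀ + κ + 1, n₀, n₁) ≤ δ⁻¹ * ∫ s, D κ n₀ n₁ s ∂(cell3 δ) := by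
    intro κ n₀ n₁
    simp only [f]
    rw [localForm_eq k₀ κ n₀ n₁ _ h₀ h₁ h₂, abs_mul, abs_of_pos (inv_pos.2 hδ)]
    exact mul_le_mul_of_nonneg_left (abs_integral_le_integral_abs) (inv_pos.2 hδ).le
  have hc3 : ∀ {F : ℝ × ℝ → ℝ}, BM F → ∀ i j : ℕ,
      BM (fun z : ℝ × ℝ => |F (z.1 + δ * i, z.2 + δ * j)| ^ 3) := fun hF i j =>
    (hF.comp (by fun_prop)).cube
  let R : ℕ → ℕ → ℝ × ℝ × ℝ → ℝ := fun i j s =>
    |samp δ F₀ s.1 s.2.1 i j| ^ 3 + |samp δ F₁ s.2.1 s.2.2 i j| ^ 3 + |samp δ F₂ s.2.2 s.1 i j| ^ 3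
  have hR0 : ∀ i j : ℕ, BM (fun s : ℝ × ℝ × ℝ => |samp δ F₀ s.1 s.2.1 i j| ^ 3) := fun i j =>
    (hc3 h₀ i j).comp (g := fun s : ℝ × ℝ × ℝ => (s.1, s.2.1)) (by fun_prop)
  have hR1 : ∀ i j : ℕ, BM (fun s : ℝ × ℝ × ℝ => |samp δ F₁ s.2.1 s.2.2 i j| ^ 3) := fun i j =>
    (hc3 h₁ i j).comp (g := fun s : ℝ × ℝ × ℝ => (s.2.1, s.2.2)) (by fun_prop)
  have hR2 : ∀ i j : ℕ, BM (fun s : ℝ × ℝ × ℝ => |samp δ F₂ s.2.2 s.1 i j| ^ 3) := fun i j =>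
    (hc3 h₂ i j).comp (g := fun s : ℝ × ℝ × ℝ => (s.2.2, s.1)) (by fun_prop)
  have hR : ∀ i j, BM (R i j) := fun i j => ((hR0 i j).add (hR1 i j)).add (hR2 i j)
  have step3 : ∑ κ ∈ range K, ∑ n₀ ∈ range (2 ^ (K - (κ + 1))),
      ∑ n₁ ∈ range (2 ^ (K - (κ + 1))), ∫ s, D κ n₀ n₁ s ∂(cell3 δ)
      ≤ 8 * ∑ i ∈ range (2 ^ K), ∑ j ∈ range (2 ^ K), ∫ s, R i j s ∂(cell3 δ) := by
    have l1 : ∑ κ ∈ range K, ∑ n₀ ∈ range (2 ^ (K - (κ + 1))),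
        ∑ n₁ ∈ range (2 ^ (K - (κ + 1))), ∫ s, D κ n₀ n₁ s ∂(cell3 δ)
        = ∫ s, ∑ κ ∈ range K, ∑ n₀ ∈ range (2 ^ (K - (κ + 1))),
          ∑ n₁ ∈ range (2 ^ (K - (κ + 1))), D κ n₀ n₁ s ∂(cell3 δ) := by
      rw [integral_finsetSum _ (fun κ _ => (BM.sum _ fun n₀ _ => BM.sum _ fun n₁ _ =>
        hD κ n₀ n₁).integrable _)]
      refine Finset.sum_congr rfl fun κ _ => ?_
      rw [integral_finsetSum _ (fun n₀ _ => (BM.sum _ fun n₁ _ => hD κ n₀ n₁).integrable _)]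
      refine Finset.sum_congr rfl fun n₀ _ => ?_
      rw [integral_finsetSum _ (fun n₁ _ => (hD κ n₀ n₁).integrable _)]
    have l2 : ∑ i ∈ range (2 ^ K), ∑ j ∈ range (2 ^ K), ∫ s, R i j s ∂(cell3 δ)
        = ∫ s, ∑ i ∈ range (2 ^ K), ∑ j ∈ range (2 ^ K), R i j s ∂(cell3 δ) := by
      rw [integral_finsetSum _ (fun i _ => (BM.sum _ fun j _ => hR i j).integrable _)]
      refine Finset.sum_congr rfl fun i _ => ?_
      rw [integral_finsetSum _ (fun j _ => (hR i j).integrable _)]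
    rw [l1, l2, ← integral_const_mul]
    refine integral_mono ((BM.sum _ fun κ _ => BM.sum _ fun n₀ _ => BM.sum _ fun n₁ _ =>
        hD κ n₀ n₁).integrable _) (((BM.const 8).mul (BM.sum _ fun i _ => BM.sum _ fun j _ =>
        hR i j)).integrable _) fun s => ?_
    exact dyad K _ _ _
  have hcc : ∀ {F : ℝ × ℝ → ℝ}, HasCompactSupport F →
      HasCompactSupport (fun z => |F z| ^ 3) := fun {F} hF =>
    hF.comp_left (g := fun t : ℝ => |t| ^ 3) (by simp)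
  have step4 : ∑ i ∈ range (2 ^ K), ∑ j ∈ range (2 ^ K), ∫ s, R i j s ∂(cell3 δ)
      ≤ δ * ((∫ z in Set.Ici 0 ×ˢ Set.Ici 0, abs (F₀ z) ^ 3) +
        (∫ z in Set.Ici 0 ×ˢ Set.Ici 0, abs (F₁ z) ^ 3) +
        (∫ z in Set.Ici 0 ×ˢ Set.Ici 0, abs (F₂ z) ^ 3)) := by
    have e : ∀ i j : ℕ, ∫ s, R i j s ∂(cell3 δ)
        = δ * ((∫ u, (∫ v, |F₀ (u + δ * (i : ℝ), v + δ * (j : ℝ))| ^ 3 ∂(cell δ)) ∂(cell δ))
          + (∫ u, (∫ v, |F₁ (u + δ * (i : ℝ), v + δ * (j : ℝ))| ^ 3 ∂(cell δ)) ∂(cell δ))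
          + (∫ u, (∫ v, |F₂ (u + δ * (i : ℝ), v + δ * (j : ℝ))| ^ 3 ∂(cell δ)) ∂(cell δ))) := by
      intro i j
      have a0 := integral_cell3_01 δ hδ.le (hc3 h₀ i j)
      have a1 := integral_cell3_12 δ hδ.le (hc3 h₁ i j)
      have a2 := integral_cell3_20 δ hδ.le (hc3 h₂ i j)
      simp only at a0 a1 a2
      simp only [R]
      rw [integral_add (((hR0 i j).add (hR1 i j)).integrable _) ((hR2 i j).integrable _),
        integral_add ((hR0 i j).integrable _) ((hR1 i j).integrable _)]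
      simp only [samp]
      rw [a0, a1, a2]; ring
    simp only [e, ← Finset.mul_sum, Finset.sum_add_distrib]
    refine mul_le_mul_of_nonneg_left (add_le_add (add_le_add ?_ ?_) ?_) hδ.le
    · exact square_le δ hδ.le _ h₀.cube (fun z => by positivity) (hcc hc₀)
    · exact square_le δ hδ.le _ h₁.cube (fun z => by positivity) (hcc hc₁)
    · exact square_le δ hδ.le _ h₂.cube (fun z => by positivity) (hcc hc₂)
  calc ∑ i ∈ 𝓘, f i ≤ _ := step1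
    _ ≤ ∑ κ ∈ range K, ∑ n₀ ∈ range (2 ^ (K - (κ + 1))),
      ∑ n₁ ∈ range (2 ^ (K - (κ + 1))), δ⁻¹ * ∫ s, D κ n₀ n₁ s ∂(cell3 δ) :=
        Finset.sum_le_sum fun κ _ => Finset.sum_le_sum fun n₀ _ => Finset.sum_le_sum fun n₁ _ =>
          step2 κ n₀ n₁
    _ = δ⁻¹ * ∑ κ ∈ range K, ∑ n₀ ∈ range (2 ^ (K - (κ + 1))),
      ∑ n₁ ∈ range (2 ^ (K - (κ + 1))), ∫ s, D κ n₀ n₁ s ∂(cell3 δ) := by
        simp only [Finset.mul_sum]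
    _ ≤ δ⁻¹ * (8 * (δ * ((∫ z in Set.Ici 0 ×ˢ Set.Ici 0, abs (F₀ z) ^ 3) +
        (∫ z in Set.Ici 0 ×ˢ Set.Ici 0, abs (F₁ z) ^ 3) +
        (∫ z in Set.Ici 0 ×ˢ Set.Ici 0, abs (F₂ z) ^ 3)))) :=
        mul_le_mul_of_nonneg_left (step3.trans (by linarith [step4])) (inv_pos.2 hδ).le
    _ = _ := by field_simp

/-- homogeneity: apply `dyad_add` to `t₀ F₀, t₁ F₁, t₂ F₂` and optimise (`24 ≤ 40`). -/
theorem dyad_mul (F₀ F₁ F₂ : ℝ × ℝ → ℝ) (hF₀ : Measurable F₀) (hF₁ : Measurable F₁)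
    (hF₂ : Measurable F₂) (hb : ∃ M : ℝ, ∀ z, abs (F₀ z) ≤ M ∧ abs (F₁ z) ≤ M ∧ abs (F₂ z) ≤ M)
    (hc₀ : HasCompactSupport F₀) (hc₁ : HasCompactSupport F₁) (hc₂ : HasCompactSupport F₂)
    (𝓘 : Finset (ℤ × ℕ × ℕ)) :
    ∑ i ∈ 𝓘, abs (TriangularDyadic.localForm i.1 i.2.1 i.2.2 (i.2.1 ^^^ i.2.2) F₀ F₁ F₂) ≤
      40 * (∫ z in Set.Ici 0 ×ˢ Set.Ici 0, abs (F₀ z) ^ 3) ^ (1 / 3 : ℝ) *
        (∫ z in Set.Ici 0 ×ˢ Set.Ici 0, abs (F₁ z) ^ 3) ^ (1 / 3 : ℝ) *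
        (∫ z in Set.Ici 0 ×ˢ Set.Ici 0, abs (F₂ z) ^ 3) ^ (1 / 3 : ℝ) := by
  set S := ∑ i ∈ 𝓘, abs (TriangularDyadic.localForm i.1 i.2.1 i.2.2 (i.2.1 ^^^ i.2.2) F₀ F₁ F₂)
    with hS
  set A₀ := ∫ z in Set.Ici 0 ×ˢ Set.Ici 0, abs (F₀ z) ^ 3 with hA₀
  set A₁ := ∫ z in Set.Ici 0 ×ˢ Set.Ici 0, abs (F₁ z) ^ 3 with hA₁
  set A₂ := ∫ z in Set.Ici 0 ×ˢ Set.Ici 0, abs (F₂ z) ^ 3 with hA₂
  have p₀ : 0 ≤ A₀ := integral_nonneg fun z => by positivity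
  have p₁ : 0 ≤ A₁ := integral_nonneg fun z => by positivity
  have p₂ : 0 ≤ A₂ := integral_nonneg fun z => by positivity
  obtain ⟨M, hM⟩ := hb
  have hM0 : 0 ≤ M := (abs_nonneg _).trans (hM 0).1
  have scal : ∀ t₀ t₁ t₂ : ℝ, 0 < t₀ → 0 < t₁ → 0 < t₂ →
      t₀ * t₁ * t₂ * S ≤ 8 * (t₀ ^ 3 * A₀ + t₁ ^ 3 * A₁ + t₂ ^ 3 * A₂) := by
    intro t₀ t₁ t₂ h₀ h₁ h₂
    have key := dyad_add (fun z => t₀ * F₀ z) (fun z => t₁ * F₁ z) (fun z => t₂ * F₂ z)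
      (hF₀.const_mul _) (hF₁.const_mul _) (hF₂.const_mul _)
      ⟨(t₀ + t₁ + t₂) * M, fun z => by
        obtain ⟨a, b, c⟩ := hM z
        rw [abs_mul, abs_mul, abs_mul, abs_of_pos h₀, abs_of_pos h₁, abs_of_pos h₂]
        refine ⟨?_, ?_, ?_⟩
        · exact mul_le_mul (by linarith) a (abs_nonneg _) (by linarith)
        · exact mul_le_mul (by linarith) b (abs_nonneg _) (by linarith)
        · exact mul_le_mul (by linarith) c (abs_nonneg _) (by linarith)⟩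
      (hc₀.comp_left (g := fun t : ℝ => t₀ * t) (by simp))
      (hc₁.comp_left (g := fun t : ℝ => t₁ * t) (by simp))
      (hc₂.comp_left (g := fun t : ℝ => t₂ * t) (by simp)) 𝓘
    have hl : ∀ (k : ℤ) (a b c : ℕ), TriangularDyadic.localForm k a b c (fun z => t₀ * F₀ z)
        (fun z => t₁ * F₁ z) (fun z => t₂ * F₂ z)
        = t₀ * t₁ * t₂ * TriangularDyadic.localForm k a b c F₀ F₁ F₂ := by
      intro k a b c
      unfold TriangularDyadic.localForm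
      rw [mul_left_comm (t₀ * t₁ * t₂)]
      congr 1
      simp only [← integral_const_mul]
      congr 1; funext x₀; congr 1; funext x₁; congr 1; funext x₂
      ring
    simp only [hl, abs_mul, abs_of_pos h₀, abs_of_pos h₁, abs_of_pos h₂, mul_pow,
      integral_const_mul, ← Finset.mul_sum] at key
    exact key
  have heps : ∀ ε : ℝ, 0 < ε → S ≤ 24 * ((A₀ + ε) ^ (1 / 3 : ℝ) * (A₁ + ε) ^ (1 / 3 : ℝ) *
      (A₂ + ε) ^ (1 / 3 : ℝ)) := by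
    intro ε hε
    have q : ∀ A : ℝ, 0 ≤ A → 0 < (A + ε) ^ (1 / 3 : ℝ) ∧ (((A + ε) ^ (1 / 3 : ℝ))⁻¹) ^ 3 * A ≤ 1 := by
      intro A hA
      have hp : 0 < A + ε := by linarith
      refine ⟨by positivity, ?_⟩
      have : ((A + ε) ^ (1 / 3 : ℝ)) ^ 3 = A + ε := by
        rw [← Real.rpow_natCast, ← Real.rpow_mul hp.le]; norm_num
      rw [inv_pow, this, inv_mul_le_iff₀ hp]
      linarith
    obtain ⟨u₀, v₀⟩ := q A₀ p₀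
    obtain ⟨u₁, v₁⟩ := q A₁ p₁
    obtain ⟨u₂, v₂⟩ := q A₂ p₂
    have := scal _ _ _ (inv_pos.2 u₀) (inv_pos.2 u₁) (inv_pos.2 u₂)
    rw [← mul_inv, ← mul_inv, inv_mul_le_iff₀ (by positivity)] at this
    refine this.trans ?_
    rw [mul_comm]
    exact mul_le_mul_of_nonneg_right (by linarith) (by positivity)
  have hcont : ContinuousAt (fun ε : ℝ => 24 * ((A₀ + ε) ^ (1 / 3 : ℝ) * (A₁ + ε) ^ (1 / 3 : ℝ) *
      (A₂ + ε) ^ (1 / 3 : ℝ))) 0 := by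
    have c : ∀ A : ℝ, Continuous (fun ε : ℝ => (A + ε) ^ (1 / 3 : ℝ)) := fun A =>
      (continuous_const.add continuous_id).rpow_const fun _ => Or.inr (by norm_num)
    exact (continuous_const.mul (((c A₀).mul (c A₁)).mul (c A₂))).continuousAt
  have hlim : S ≤ 24 * ((A₀ + 0) ^ (1 / 3 : ℝ) * (A₁ + 0) ^ (1 / 3 : ℝ) *
      (A₂ + 0) ^ (1 / 3 : ℝ)) :=
    ge_of_tendsto (hcont.tendsto.mono_left (nhdsWithin_le_nhds (s := Set.Ioi 0)))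
      (eventually_nhdsWithin_of_forall fun ε hε => heps ε hε)
  simp only [add_zero] at hlim
  have hn : 0 ≤ A₀ ^ (1 / 3 : ℝ) * A₁ ^ (1 / 3 : ℝ) * A₂ ^ (1 / 3 : ℝ) := by positivity
  calc S ≤ _ := hlim
    _ ≤ 40 * (A₀ ^ (1 / 3 : ℝ) * A₁ ^ (1 / 3 : ℝ) * A₂ ^ (1 / 3 : ℝ)) := by linarith
    _ = _ := by ring

end Crest.Agent.R72
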