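import Crest.Agent.R72.Count

/-! # R72 task Var: the `r`-variation from the count -/

set_option autoImplicit false

namespace Crest.Agent.R72

open Matrix Finset

open MeasureTheory Crest.AnalysisR
open scoped ENNReal

namespace Var

/-- `ℓ¹ ⊆ ℓ^r` -/
theorem sum_rpow_le_rpow_sum {ι : Type*} (s : Finset ι) (b : ι → ℝ≥0∞) {r : ℝ} (hr : 1 ≤ r) :
    ∑ k ∈ s, b k ^ r ≤ (∑ k ∈ s, b k) ^ r := by
  classical
  induction s using Finset.induction_on with
  | empty => simp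
  | insert i s hi ih =>
    rw [sum_insert hi, sum_insert hi]
    exact (add_le_add le_rfl ih).trans (ENNReal.add_rpow_le_rpow_add _ _ hr)

/-- the block weight: `2^k (N / 2^k)^r = (2^{k/r-k} N)^r` in the form that is needed -/
theorem block_le {r : ℝ} (hr : 1 ≤ r) (k : ℕ) (a N : ℝ≥0∞) (h : (2 ^ k : ℕ) * a ≤ N) :
    (2 ^ k : ℕ) * a ^ r ≤ (ENNReal.ofReal ((2 : ℝ) ^ ((k : ℝ) / r - k)) * N) ^ r := by
  have hr0 : 0 < r := by linarith
  have h1 : (ENNReal.ofReal ((2 : ℝ) ^ ((k : ℝ) / r - k)) * ((2 ^ k : ℕ) * a)) ^ r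
      = (2 ^ k : ℕ) * a ^ r := by
    rw [← mul_assoc, ENNReal.mul_rpow_of_nonneg _ _ hr0.le]
    congr 1
    rw [← ENNReal.ofReal_natCast, ← ENNReal.ofReal_mul (by positivity),
      ENNReal.ofReal_rpow_of_nonneg (by positivity) hr0.le]
    congr 1
    have h2 : ((2 ^ k : ℕ) : ℝ) = (2 : ℝ) ^ (k : ℝ) := by
      rw [Real.rpow_natCast]; push_cast; ring
    rw [h2, ← Real.rpow_add (by norm_num), ← Real.rpow_mul (by norm_num)]
    congr 1
    field_simp
    ring
  rw [← h1]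
  exact ENNReal.rpow_le_rpow (mul_le_mul_right h _) hr0.le

/-- the sorting lemma -/
theorem sum_rpow_le {n : ℕ} (r : ℝ) (hr : 1 ≤ r) (a : Fin n → ℝ≥0∞) (N : ℕ → ℝ≥0∞)
    (h : ∀ (m : ℕ) (s : Finset (Fin n)), s.card ≤ m → ∑ i ∈ s, a i ≤ N m) :
    (∑ i, a i ^ r) ^ (1 / r) ≤
      ∑' k : ℕ, ENNReal.ofReal ((2 : ℝ) ^ ((k : ℝ) / r - k)) * N (2 ^ k) := by
  classical
  have hr0 : 0 < r := by linarith
  set key : Fin n → ℝ≥0∞ ×ₗ Fin n := fun i => toLex (a i, i) with hkey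
  have key_inj : Function.Injective key := by
    intro i j hij
    have := congrArg (fun p => (ofLex p).2) hij
    simpa [hkey] using this
  set up : Fin n → Finset (Fin n) := fun i => univ.filter fun j => key i ≤ key j with hup
  set ρ : Fin n → ℕ := fun i => (up i).card with hρ
  have ρ_pos : ∀ i, 0 < ρ i := fun i => card_pos.2 ⟨i, by simp [hup]⟩
  have ρ_lt : ∀ i j, key i < key j → ρ j < ρ i := by
    intro i j hij
    refine card_lt_card ⟨fun l hl => ?_, fun hsub => ?_⟩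
    · simp only [hup, mem_filter, mem_univ, true_and] at hl ⊢
      exact hij.le.trans hl
    · have : i ∈ up j := hsub (by simp [hup])
      simp only [hup, mem_filter, mem_univ, true_and] at this
      exact absurd hij (not_lt.2 this)
  have ρ_inj : Function.Injective ρ := by
    intro i j hij
    rcases lt_trichotomy (key i) (key j) with h1 | h1 | h1
    · exact absurd hij (ρ_lt i j h1).ne'
    · exact key_inj h1
    · exact absurd hij (ρ_lt j i h1).ne
  have up_le : ∀ i j, j ∈ up i → a i ≤ a j := by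
    intro i j hj
    simp only [hup, mem_filter, mem_univ, true_and, hkey] at hj
    rcases (Prod.Lex.toLex_le_toLex).1 hj with h1 | h1
    · exact h1.le
    · exact h1.1.le
  set lvl : Fin n → ℕ := fun i => Nat.log 2 (ρ i) with hlvl
  have hlo : ∀ i, 2 ^ lvl i ≤ ρ i := fun i => Nat.pow_log_le_self 2 (ρ_pos i).ne'
  have hhi : ∀ i, ρ i < 2 ^ (lvl i + 1) := fun i => Nat.lt_pow_succ_log_self (by norm_num) _
  have ha : ∀ i, (2 ^ lvl i : ℕ) * a i ≤ N (2 ^ lvl i) := by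
    intro i
    obtain ⟨s, hs, hcard⟩ := exists_subset_card_eq (hlo i)
    refine le_trans ?_ (h _ s hcard.le)
    rw [← hcard, ← nsmul_eq_mul]
    exact card_nsmul_le_sum s a (a i) fun j hj => up_le i j (hs hj)
  have hcard : ∀ k, (univ.filter fun i => lvl i = k).card ≤ 2 ^ k := by
    intro k
    have : (univ.filter fun i => lvl i = k).card ≤ (Ico (2 ^ k) (2 ^ (k + 1))).card := by
      refine card_le_card_of_injOn ρ (fun i hi => ?_) (ρ_inj.injOn)
      have hi' : lvl i = k := by simpa using hi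
      simp only [coe_Ico, Set.mem_Ico]
      exact ⟨hi' ▸ hlo i, hi' ▸ hhi i⟩
    rw [Nat.card_Ico, pow_succ, mul_two, Nat.add_sub_cancel] at this
    exact this
  set b : ℕ → ℝ≥0∞ := fun k => ENNReal.ofReal ((2 : ℝ) ^ ((k : ℝ) / r - k)) * N (2 ^ k) with hb
  have hblock : ∀ k, ∑ i ∈ univ.filter (fun i => lvl i = k), a i ^ r ≤ b k ^ r := by
    intro k
    rcases (univ.filter fun i => lvl i = k).eq_empty_or_nonempty with he | hne
    · rw [he]; simp
    · obtain ⟨i₀, hi₀, hmax⟩ := exists_max_image _ a hne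
      have hi₀' : lvl i₀ = k := by simpa using hi₀
      calc ∑ i ∈ univ.filter (fun i => lvl i = k), a i ^ r
          ≤ (univ.filter fun i => lvl i = k).card • a i₀ ^ r :=
            sum_le_card_nsmul _ _ _ fun i hi => ENNReal.rpow_le_rpow (hmax i hi) hr0.le
        _ ≤ (2 ^ k : ℕ) * a i₀ ^ r := by
            rw [nsmul_eq_mul]
            exact mul_le_mul_left (by exact_mod_cast hcard k) _
        _ ≤ b k ^ r := block_le hr k _ _ (hi₀' ▸ ha i₀)
  have hsum : ∑ i, a i ^ r ≤ (∑' k, b k) ^ r := by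
    calc ∑ i, a i ^ r
        = ∑ k ∈ univ.image lvl, ∑ i ∈ univ.filter (fun i => lvl i = k), a i ^ r :=
          (sum_fiberwise_of_maps_to (fun i _ => mem_image_of_mem lvl (mem_univ i)) _).symm
      _ ≤ ∑ k ∈ univ.image lvl, b k ^ r := sum_le_sum fun k _ => hblock k
      _ ≤ (∑ k ∈ univ.image lvl, b k) ^ r := sum_rpow_le_rpow_sum _ _ hr
      _ ≤ (∑' k, b k) ^ r := ENNReal.rpow_le_rpow (ENNReal.sum_le_tsum _) hr0.le
  calc (∑ i, a i ^ r) ^ (1 / r) ≤ ((∑' k, b k) ^ r) ^ (1 / r) :=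
        ENNReal.rpow_le_rpow hsum (by positivity)
    _ = ∑' k, b k := by
        rw [← ENNReal.rpow_mul, mul_one_div_cancel hr0.ne', ENNReal.rpow_one]

/-- Hölder for series -/
theorem tsum_rpow_le (w X : ℕ → ℝ≥0∞) :
    (∑' k, w k * X k) ^ (3 / 2 : ℝ) ≤
      (∑' k, w k) ^ (1 / 2 : ℝ) * ∑' k, w k * X k ^ (3 / 2 : ℝ) := by
  have h := ENNReal.lintegral_mul_norm_pow_le (μ := (Measure.count : Measure ℕ)) (f := w)
    (g := fun k => w k * X k ^ (3 / 2 : ℝ)) (measurable_from_top.aemeasurable)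
    (measurable_from_top.aemeasurable) (p := 1 / 3) (q := 2 / 3) (by norm_num) (by norm_num)
    (by norm_num)
  simp only [lintegral_count] at h
  have h1 : ∀ k, w k ^ (1 / 3 : ℝ) * (w k * X k ^ (3 / 2 : ℝ)) ^ (2 / 3 : ℝ) = w k * X k := by
    intro k
    rw [ENNReal.mul_rpow_of_nonneg _ _ (by norm_num), ← mul_assoc,
      ← ENNReal.rpow_add_of_nonneg _ _ (by norm_num) (by norm_num), ← ENNReal.rpow_mul]
    norm_num
  simp only [h1] at h
  refine (ENNReal.rpow_le_rpow h (by norm_num : (0 : ℝ) ≤ 3 / 2)).trans (le_of_eq ?_)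
  rw [ENNReal.mul_rpow_of_nonneg _ _ (by norm_num), ← ENNReal.rpow_mul, ← ENNReal.rpow_mul]
  norm_num

/-- Minkowski for weighted series of uniformly bounded functions -/
theorem lintegral_tsum_le {α : Type*} [MeasurableSpace α] (μ : Measure α) (w : ℕ → ℝ≥0∞)
    (X : ℕ → α → ℝ≥0∞) (hX : ∀ k, AEMeasurable (X k) μ) (A : ℝ≥0∞)
    (hA : ∀ k, (∫⁻ z, X k z ^ (3 / 2 : ℝ) ∂μ) ^ (2 / 3 : ℝ) ≤ A) :
    (∫⁻ z, (∑' k, w k * X k z) ^ (3 / 2 : ℝ) ∂μ) ^ (2 / 3 : ℝ) ≤ (∑' k, w k) * A := by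
  have hA' : ∀ k, ∫⁻ z, X k z ^ (3 / 2 : ℝ) ∂μ ≤ A ^ (3 / 2 : ℝ) := by
    intro k
    have := ENNReal.rpow_le_rpow (hA k) (by norm_num : (0 : ℝ) ≤ 3 / 2)
    rw [← ENNReal.rpow_mul] at this
    norm_num at this
    exact this
  have hm : ∀ k, AEMeasurable (fun z => w k * X k z ^ (3 / 2 : ℝ)) μ := fun k =>
    ((hX k).pow_const _).const_mul _
  have h1 : ∫⁻ z, (∑' k, w k * X k z) ^ (3 / 2 : ℝ) ∂μ ≤ ((∑' k, w k) * A) ^ (3 / 2 : ℝ) := by
    calc ∫⁻ z, (∑' k, w k * X k z) ^ (3 / 2 : ℝ) ∂μ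
        ≤ ∫⁻ z, (∑' k, w k) ^ (1 / 2 : ℝ) * ∑' k, w k * X k z ^ (3 / 2 : ℝ) ∂μ :=
          lintegral_mono fun z => tsum_rpow_le w fun k => X k z
      _ = (∑' k, w k) ^ (1 / 2 : ℝ) * ∑' k, w k * ∫⁻ z, X k z ^ (3 / 2 : ℝ) ∂μ := by
          rw [lintegral_const_mul'' _ (AEMeasurable.tsum hm), lintegral_tsum hm]
          congr 1
          exact tsum_congr fun k => lintegral_const_mul'' _ ((hX k).pow_const _)
      _ ≤ (∑' k, w k) ^ (1 / 2 : ℝ) * ∑' k, w k * A ^ (3 / 2 : ℝ) :=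
          mul_le_mul_right (ENNReal.tsum_le_tsum fun k => mul_le_mul_right (hA' k) _) _
      _ = ((∑' k, w k) * A) ^ (3 / 2 : ℝ) := by
          rw [ENNReal.tsum_mul_right, ← mul_assoc, ENNReal.mul_rpow_of_nonneg _ _ (by norm_num)]
          congr 1
          rw [show (3 / 2 : ℝ) = 1 / 2 + 1 by norm_num,
            ENNReal.rpow_add_of_nonneg _ _ (by norm_num) (by norm_num), ENNReal.rpow_one]
  refine (ENNReal.rpow_le_rpow h1 (by norm_num : (0 : ℝ) ≤ 2 / 3)).trans (le_of_eq ?_)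
  rw [← ENNReal.rpow_mul]
  norm_num

end Var

/-- Pointwise.  Sort the increments `a_j = ‖B_{t_j, t_{j+1}}‖` of a chain decreasingly, `a*_1 ≥ a*_2 ≥ …`; the `n`
largest form an admissible family, so `n a*_n ≤ annulusCount n`; group the indices in blocks
`2^k ≤ n < 2^(k+1)` and use `ℓ¹ ⊆ ℓ^r` over the blocks. -/
theorem variation_le (r : ℝ) (hr : 1 ≤ r) (F G : ℝ × ℝ → ℂ) (z : ℝ × ℝ) :
    annularVariation r F G z ≤
      ∑' k : ℕ, ENNReal.ofReal ((2 : ℝ) ^ ((k : ℝ) / r - k)) * annulusCount (2 ^ k) F G z := by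
  unfold annularVariation
  refine iSup_le fun J => iSup_le fun t => iSup_le fun ht => iSup_le fun h0 => ?_
  refine Var.sum_rpow_le r hr
    (fun j : Fin (J + 1) =>
      ‖annularTriangularHT F G (t (Fin.castSucc j) : ℝ) (t (Fin.succ j) : ℝ) z‖ₑ)
    (fun n => annulusCount n F G z) fun m s hs => ?_
  set e : Fin s.card ↪o Fin (J + 1) := s.orderEmbOfFin rfl with he
  have hsum : ∑ i ∈ s, ‖annularTriangularHT F G (t (Fin.castSucc i) : ℝ) (t (Fin.succ i) : ℝ) z‖ₑ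
      = ∑ j : Fin s.card, ‖annularTriangularHT F G (t (Fin.castSucc (e j)) : ℝ)
        (t (Fin.succ (e j)) : ℝ) z‖ₑ := by
    conv_lhs => rw [← Finset.map_orderEmbOfFin_univ s rfl]
    rw [sum_map]
    rfl
  rw [hsum]
  unfold annulusCount
  refine le_iSup_of_le s.card (le_iSup_of_le hs (le_iSup_of_le (fun j => t (Fin.castSucc (e j)))
    (le_iSup_of_le (fun j => t (Fin.succ (e j))) (le_iSup_of_le (fun j => ⟨?_, ?_⟩)
      (le_iSup_of_le (fun i j hij => ?_) le_rfl)))))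
  · exact h0.trans_le (ht.monotone (Fin.zero_le _))
  · exact ht Fin.castSucc_lt_succ
  · rcases lt_or_gt_of_ne hij with h | h
    · left
      have h1 : e i < e j := e.strictMono h
      exact ht.monotone (Fin.succ_le_castSucc_iff.2 h1)
    · right
      have h1 : e j < e i := e.strictMono h
      exact ht.monotone (Fin.succ_le_castSucc_iff.2 h1)

/-- `variation_le`, `count_bound`; with `w_k = 2^{k (1/r - 1/2)}` (summable as `r > 2`) and
`X_k = 2^{-k/2} annulusCount (2^k)`: `(∑ w_k X_k)^{3/2} ≤ (∑ w_k)^{1/2} ∑ w_k X_k^{3/2}` (Hölder), then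
`lintegral_tsum`. -/
theorem variation_bound (r : ℝ) (hr : 2 < r) : ∃ C : ℝ, ∀ F G : ℝ × ℝ → ℂ,
    MemLp F 3 volume → MemLp G 3 volume →
      (∫⁻ z, annularVariation r F G z ^ (3 / 2 : ℝ)) ^ (2 / 3 : ℝ) ≤
        ENNReal.ofReal C * eLpNorm F 3 volume * eLpNorm G 3 volume := by
  obtain ⟨C, hC0, hC⟩ := count_bound
  have hr0 : 0 < r := by linarith
  set q : ℝ := (2 : ℝ) ^ (1 / r - 1 / 2) with hq
  have hq0 : 0 ≤ q := by positivity
  have hq1 : q < 1 := by
    refine Real.rpow_lt_one_of_one_lt_of_neg (by norm_num) ?_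
    have : 1 / r < 1 / 2 := one_div_lt_one_div_of_lt (by norm_num) hr
    linarith
  refine ⟨(1 - q)⁻¹ * C, fun F G hF hG => ?_⟩
  set w : ℕ → ℝ≥0∞ := fun k => ENNReal.ofReal (q ^ k) with hw
  set c : ℕ → ℝ := fun k => (2 : ℝ) ^ (-(k : ℝ) / 2) with hc
  have hc0 : ∀ k, 0 ≤ c k := fun k => by positivity
  have hW : ∑' k, w k = ENNReal.ofReal (1 - q)⁻¹ := by
    rw [← tsum_geometric_of_lt_one hq0 hq1,
      ENNReal.ofReal_tsum_of_nonneg (fun k => by positivity) (summable_geometric_of_lt_one hq0 hq1)]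
  have hwc : ∀ k : ℕ, ENNReal.ofReal ((2 : ℝ) ^ ((k : ℝ) / r - k)) = w k * ENNReal.ofReal (c k) := by
    intro k
    simp only [hw, hc, hq]
    rw [← ENNReal.ofReal_mul (by positivity), ← Real.rpow_natCast, ← Real.rpow_mul (by norm_num),
      ← Real.rpow_add (by norm_num)]
    congr 2
    ring
  have hcs : ∀ k : ℕ, c k * (C * √((2 ^ k : ℕ) : ℝ)) = C := by
    intro k
    have h2 : ((2 ^ k : ℕ) : ℝ) = (2 : ℝ) ^ (k : ℝ) := by
      rw [Real.rpow_natCast]; push_cast; ring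
    simp only [hc]
    rw [h2, Real.sqrt_eq_rpow, ← Real.rpow_mul (by norm_num), mul_left_comm,
      ← Real.rpow_add (by norm_num)]
    rw [show -(k : ℝ) / 2 + (k : ℝ) * (1 / 2) = 0 by ring, Real.rpow_zero, mul_one]
  have hN : ∀ k, AEMeasurable (annulusCount (2 ^ k) F G) volume := fun k =>
    aemeasurable_annulusCount hF.1 hG.1 _
  have key := Var.lintegral_tsum_le volume w
    (fun k z => ENNReal.ofReal (c k) * annulusCount (2 ^ k) F G z)
    (fun k => (hN k).const_mul _) (ENNReal.ofReal C * eLpNorm F 3 volume * eLpNorm G 3 volume)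
    (fun k => by
      have h1 : (∫⁻ z, (ENNReal.ofReal (c k) * annulusCount (2 ^ k) F G z) ^ (3 / 2 : ℝ)) ^ (2 / 3 : ℝ)
          = ENNReal.ofReal (c k) *
            (∫⁻ z, annulusCount (2 ^ k) F G z ^ (3 / 2 : ℝ)) ^ (2 / 3 : ℝ) := by
        simp only [ENNReal.mul_rpow_of_nonneg _ _ (by norm_num : (0 : ℝ) ≤ 3 / 2)]
        rw [lintegral_const_mul'' _ ((hN k).pow_const _),
          ENNReal.mul_rpow_of_nonneg _ _ (by norm_num : (0 : ℝ) ≤ 2 / 3), ← ENNReal.rpow_mul]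
        norm_num
      rw [h1]
      refine (mul_le_mul_right (hC (2 ^ k) Nat.one_le_two_pow F G hF hG) _).trans (le_of_eq ?_)
      rw [← mul_assoc, ← mul_assoc, ← ENNReal.ofReal_mul (hc0 k), hcs k])
  calc (∫⁻ z, annularVariation r F G z ^ (3 / 2 : ℝ)) ^ (2 / 3 : ℝ)
      ≤ (∫⁻ z, (∑' k, w k * (ENNReal.ofReal (c k) * annulusCount (2 ^ k) F G z)) ^ (3 / 2 : ℝ))
          ^ (2 / 3 : ℝ) := by
        refine ENNReal.rpow_le_rpow (lintegral_mono fun z => ?_) (by norm_num)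
        refine ENNReal.rpow_le_rpow ?_ (by norm_num)
        refine (variation_le r (by linarith) F G z).trans (le_of_eq ?_)
        exact tsum_congr fun k => by rw [hwc k, mul_assoc]
    _ ≤ (∑' k, w k) * (ENNReal.ofReal C * eLpNorm F 3 volume * eLpNorm G 3 volume) := key
    _ = ENNReal.ofReal ((1 - q)⁻¹ * C) * eLpNorm F 3 volume * eLpNorm G 3 volume := by
        rw [hW, ENNReal.ofReal_mul (inv_nonneg.2 (by linarith))]
        simp only [mul_assoc]

end Crest.Agent.R72
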